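import Vale.Agent.P064.Code

open Finset Pointwise

namespace Vale.Agent.P064

section avg

variable {Γ : Type} [Group Γ] [Fintype Γ] {Z : Type} [MulAction Γ Z]

/-- Average over the group. -/
noncomputable def avg (Γ : Type) [Group Γ] [Fintype Γ] {Z : Type} [MulAction Γ Z]
    (φ : Z → ℝ) (z : Z) : ℝ := (∑ g : Γ, φ (g • z)) / Fintype.card Γ

lemma cardG_pos : (0 : ℝ) < Fintype.card Γ := by exact_mod_cast Fintype.card_pos

lemma avg_smul (φ : Z → ℝ) (h : Γ) (z : Z) : avg Γ φ (h • z) = avg Γ φ z := by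
  unfold avg
  congr 1
  rw [← Equiv.sum_comp (Equiv.mulRight h) (fun g => φ (g • z))]
  exact Finset.sum_congr rfl fun g _ => by simp [mul_smul]

lemma avg_nonneg {φ : Z → ℝ} (h0 : ∀ z, 0 ≤ φ z) (z : Z) : 0 ≤ avg Γ φ z :=
  div_nonneg (Finset.sum_nonneg fun _ _ => h0 _) cardG_pos.le

lemma avg_pos {φ : Z → ℝ} (h0 : ∀ z, 0 ≤ φ z) {z : Z} (h : φ z ≠ 0) : 0 < avg Γ φ z := by
  refine div_pos (lt_of_lt_of_le (lt_of_le_of_ne (h0 z) (Ne.symm h)) ?_) cardG_pos
  have := Finset.single_le_sum (f := fun g : Γ => φ (g • z)) (fun g _ => h0 _)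
    (Finset.mem_univ (1 : Γ))
  simpa using this

lemma avg_ne_zero {φ : Z → ℝ} {z : Z} (h : avg Γ φ z ≠ 0) : ∃ g : Γ, φ (g • z) ≠ 0 := by
  by_contra hc
  push Not at hc
  apply h
  simp [avg, hc]

lemma avg_mul_inv (φ ψ : Z → ℝ) (hψ : ∀ (g : Γ) z, ψ (g • z) = ψ z) (z : Z) :
    avg Γ (fun z => φ z * ψ z) z = avg Γ φ z * ψ z := by
  unfold avg
  simp only [hψ, ← Finset.sum_mul]
  ring

lemma avg_inv (ψ : Z → ℝ) (hψ : ∀ (g : Γ) z, ψ (g • z) = ψ z) (z : Z) : avg Γ ψ z = ψ z := by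
  unfold avg
  have := cardG_pos (Γ := Γ)
  simp only [hψ, Finset.sum_const, Finset.card_univ, nsmul_eq_mul]
  field_simp

lemma sum_smul_eq [Fintype Z] (g : Γ) (φ : Z → ℝ) : ∑ z, φ (g • z) = ∑ z, φ z :=
  Equiv.sum_comp (MulAction.toPerm g) φ

lemma sum_avg_comm [Fintype Z] (φ ψ : Z → ℝ) :
    ∑ z, avg Γ φ z * ψ z = ∑ z, φ z * avg Γ ψ z := by
  unfold avg
  have e1 : ∀ z, (∑ g : Γ, φ (g • z)) / Fintype.card Γ * ψ z
      = (∑ g : Γ, φ (g • z) * ψ z) / Fintype.card Γ := fun z => by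
    rw [← Finset.sum_mul]; ring
  have e2 : ∀ z, φ z * ((∑ g : Γ, ψ (g • z)) / Fintype.card Γ)
      = (∑ g : Γ, φ z * ψ (g⁻¹ • z)) / Fintype.card Γ := fun z => by
    rw [← Finset.mul_sum, ← Equiv.sum_comp (Equiv.inv Γ) (fun g => ψ (g • z))]
    simp only [Equiv.inv_apply]
    ring
  simp only [e1, e2, ← Finset.sum_div]
  congr 1
  rw [Finset.sum_comm, Finset.sum_comm (s := (univ : Finset Z))]
  refine Finset.sum_congr rfl fun g _ => ?_
  rw [← sum_smul_eq g (fun z => φ z * ψ (g⁻¹ • z))]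
  simp only [inv_smul_smul]

lemma sum_avg_mul [Fintype Z] (φ ψ : Z → ℝ) (hψ : ∀ (g : Γ) z, ψ (g • z) = ψ z) :
    ∑ z, avg Γ φ z * ψ z = ∑ z, φ z * ψ z := by
  rw [sum_avg_comm]
  simp only [avg_inv ψ hψ]

lemma sum_avg [Fintype Z] (φ : Z → ℝ) : ∑ z, avg Γ φ z = ∑ z, φ z := by
  simpa using sum_avg_mul (Γ := Γ) φ (fun _ => 1) fun _ _ => rfl

lemma log_le_avg [Fintype Z] {μ ν : Z → ℝ} (h0 : ∀ z, 0 ≤ μ z) (h1 : ∑ z, μ z = 1)
    (ν0 : ∀ z, 0 ≤ ν z) (νi : ∀ (g : Γ) z, ν (g • z) = ν z) (ν1 : ∑ z, ν z ≤ 1)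
    (hp : ∀ z, μ z ≠ 0 → 0 < ν z) :
    ∑ z, μ z * Real.log (ν z) ≤ ∑ z, μ z * Real.log (avg Γ μ z) := by
  have a := sum_log_le h0 h1 (fun z => ν z / avg Γ μ z)
    (fun z h => div_pos (hp z h) (avg_pos h0 h)) (by
      rw [← sum_avg_mul (Γ := Γ) μ (fun z => ν z / avg Γ μ z)
        (fun g z => by simp only [νi, avg_smul])]
      refine le_trans (Finset.sum_le_sum fun z _ => ?_) ν1
      by_cases h : avg Γ μ z = 0
      · simp [h, ν0 z]
      · rw [mul_div_cancel₀ _ h])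
  have b : ∑ z, μ z * Real.log (ν z / avg Γ μ z)
      = ∑ z, μ z * Real.log (ν z) - ∑ z, μ z * Real.log (avg Γ μ z) := by
    rw [← Finset.sum_sub_distrib]
    refine Finset.sum_congr rfl fun z _ => ?_
    by_cases h : μ z = 0
    · simp [h]
    · rw [Real.log_div (hp z h).ne' (avg_pos h0 h).ne']
      ring
  linarith

variable {Y : Type} [Fintype Y] [DecidableEq Y] [MulAction Γ Y]

lemma kl_avg (H : Finset Y) (L : ℝ)
    (hM : ∀ D : Finset Y, ((univ.filter (fun g : Γ => g • D ⊆ H)).card : ℝ)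
      ≤ Fintype.card Γ * Real.exp (-(D.card * L)))
    {l : Finset Y → ℝ} (h0 : ∀ s, 0 ≤ l s) (h1 : ∑ s, l s = 1) (hs : ∀ s, l s ≠ 0 → s ⊆ H) :
    ∑ s, l s * Real.log (avg Γ l s) + ∑ s, l s * (s.card * L) ≤ ∑ s, l s * Real.log (l s) := by
  have a := sum_log_le h0 h1 (fun s => avg Γ l s * Real.exp (s.card * L) / l s)
    (fun s h => div_pos (mul_pos (avg_pos h0 h) (Real.exp_pos _))
      (lt_of_le_of_ne (h0 s) (Ne.symm h))) (by
      have e : ∑ s, l s * (avg Γ l s * Real.exp (s.card * L) / l s)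
          ≤ ∑ s, avg Γ l s * (if s ⊆ H then Real.exp (s.card * L) else 0) := by
        refine Finset.sum_le_sum fun s _ => ?_
        by_cases h : l s = 0
        · rw [h, zero_mul]
          refine mul_nonneg (avg_nonneg h0 s) ?_
          split_ifs
          · exact (Real.exp_pos _).le
          · exact le_rfl
        · rw [mul_div_cancel₀ _ h, if_pos (hs s h)]
      refine e.trans ?_
      rw [sum_avg_comm, ← h1]
      refine Finset.sum_le_sum fun s _ => mul_le_of_le_one_right (h0 s) ?_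
      unfold avg
      rw [div_le_one cardG_pos]
      simp only [Finset.card_smul_finset]
      rw [← Finset.sum_filter, Finset.sum_const, nsmul_eq_mul]
      refine le_trans (mul_le_mul_of_nonneg_right (hM s) (Real.exp_pos _).le) (le_of_eq ?_)
      rw [mul_assoc, ← Real.exp_add]
      simp)
  have b : ∑ s, l s * Real.log (avg Γ l s * Real.exp (s.card * L) / l s)
      = ∑ s, l s * Real.log (avg Γ l s) + ∑ s, l s * (s.card * L)
        - ∑ s, l s * Real.log (l s) := by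
    rw [← Finset.sum_add_distrib, ← Finset.sum_sub_distrib]
    refine Finset.sum_congr rfl fun s _ => ?_
    by_cases h : l s = 0
    · simp [h]
    · rw [Real.log_div (mul_pos (avg_pos h0 h) (Real.exp_pos _)).ne' h,
        Real.log_mul (avg_pos h0 h).ne' (Real.exp_pos _).ne', Real.log_exp]
      ring
  linarith

end avg

end Vale.Agent.P064
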