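import Vale.Agent.P064.Entropy

open Finset

namespace Vale.Agent.P064

section cells

variable {Ω : Type} [Fintype Ω]

/-- Mass of a fibre. -/
noncomputable def fib {β : Type} [DecidableEq β] (r : Ω → ℝ) (f : Ω → β) (v : β) : ℝ :=
  ∑ ω, if f ω = v then r ω else 0

/-- Negative entropy of a random variable. -/
noncomputable def ne {β : Type} [DecidableEq β] (r : Ω → ℝ) (f : Ω → β) : ℝ :=
  ∑ ω, r ω * Real.log (fib r f (f ω))

variable {β : Type} [DecidableEq β] {r : Ω → ℝ}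

lemma fib_nonneg (h0 : ∀ ω, 0 ≤ r ω) (f : Ω → β) (v : β) : 0 ≤ fib r f v :=
  Finset.sum_nonneg fun ω _ => by split_ifs; exacts [h0 ω, le_rfl]

lemma le_fib (h0 : ∀ ω, 0 ≤ r ω) (f : Ω → β) (ω : Ω) : r ω ≤ fib r f (f ω) := by
  have := Finset.single_le_sum (f := fun ω' => if f ω' = f ω then r ω' else 0)
    (fun ω' _ => by split_ifs; exacts [h0 ω', le_rfl]) (Finset.mem_univ ω)
  simpa [fib] using this

lemma fib_pos (h0 : ∀ ω, 0 ≤ r ω) (f : Ω → β) {ω : Ω} (h : r ω ≠ 0) : 0 < fib r f (f ω) :=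
  lt_of_lt_of_le (lt_of_le_of_ne (h0 ω) (Ne.symm h)) (le_fib h0 f ω)

lemma fib_mono {r' : Ω → ℝ} (h : ∀ ω, r ω ≤ r' ω) (f : Ω → β) (v : β) :
    fib r f v ≤ fib r' f v :=
  Finset.sum_le_sum fun ω _ => by split_ifs; exacts [h ω, le_rfl]

lemma sum_push [Fintype β] (r : Ω → ℝ) (f : Ω → β) (F : β → ℝ) :
    ∑ ω, r ω * F (f ω) = ∑ v, fib r f v * F v := by
  unfold fib
  simp only [Finset.sum_mul]
  rw [Finset.sum_comm]
  refine Finset.sum_congr rfl fun ω _ => ?_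
  rw [Finset.sum_eq_single (f ω)]
  · simp
  · intro v _ hv
    simp [Ne.symm hv]
  · simp

lemma sum_fib [Fintype β] (r : Ω → ℝ) (f : Ω → β) : ∑ v, fib r f v = ∑ ω, r ω := by
  have := sum_push r f fun _ => 1
  simpa using this.symm

lemma ne_congr {γ : Type} [DecidableEq γ] (r : Ω → ℝ) (f : Ω → β) (g : Ω → γ)
    (h : ∀ ω ω', f ω' = f ω ↔ g ω' = g ω) : ne r f = ne r g := by
  unfold ne fib
  simp only [h]

lemma sum_log_le (h0 : ∀ ω, 0 ≤ r ω) (h1 : ∑ ω, r ω = 1) (φ : Ω → ℝ)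
    (hp : ∀ ω, r ω ≠ 0 → 0 < φ ω) (h : ∑ ω, r ω * φ ω ≤ 1) :
    ∑ ω, r ω * Real.log (φ ω) ≤ 0 := by
  have a : ∀ ω, r ω * Real.log (φ ω) ≤ r ω * φ ω - r ω := by
    intro ω
    by_cases hω : r ω = 0
    · simp [hω]
    · have := mul_le_mul_of_nonneg_left (Real.log_le_sub_one_of_pos (hp ω hω)) (h0 ω)
      linarith
  have := Finset.sum_le_sum fun ω (_ : ω ∈ univ) => a ω
  rw [Finset.sum_sub_distrib] at this
  linarith

lemma gibbs_push [Fintype β] (h0 : ∀ ω, 0 ≤ r ω) (h1 : ∑ ω, r ω = 1) (f : Ω → β) (G : β → ℝ)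
    (G0 : ∀ v, 0 ≤ G v) (G1 : ∑ v, G v ≤ 1) (hp : ∀ ω, r ω ≠ 0 → 0 < G (f ω)) :
    ∑ ω, r ω * Real.log (G (f ω)) ≤ ne r f := by
  have a := sum_log_le h0 h1 (fun ω => G (f ω) / fib r f (f ω))
    (fun ω h => div_pos (hp ω h) (fib_pos h0 f h)) (by
      rw [sum_push r f (fun v => G v / fib r f v)]
      refine le_trans (Finset.sum_le_sum fun v _ => ?_) G1
      by_cases hv : fib r f v = 0
      · simp [hv, G0 v]
      · rw [mul_div_cancel₀ _ hv])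
  have b : ∑ ω, r ω * Real.log (G (f ω) / fib r f (f ω))
      = ∑ ω, r ω * Real.log (G (f ω)) - ne r f := by
    unfold ne
    rw [← Finset.sum_sub_distrib]
    refine Finset.sum_congr rfl fun ω _ => ?_
    by_cases h : r ω = 0
    · simp [h]
    · rw [Real.log_div (hp ω h).ne' (fib_pos h0 f h).ne']
      ring
  linarith

/-- Conditional expectation of `F` given the value of `T`. -/
noncomputable def ce (r : Ω → ℝ) (T : Ω → β) (F : Ω → ℝ) (t : β) : ℝ :=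
  fib (fun ω => r ω * F ω) T t / fib r T t

lemma fib_mul_ce (h0 : ∀ ω, 0 ≤ r ω) (T : Ω → β) (F : Ω → ℝ) (t : β) :
    fib r T t * ce r T F t = fib (fun ω => r ω * F ω) T t := by
  unfold ce
  by_cases h : fib r T t = 0
  · rw [h, zero_mul]
    symm
    refine Finset.sum_eq_zero fun ω _ => ?_
    split_ifs with a
    · have : r ω = 0 := by
        by_contra hr
        have := fib_pos h0 T hr
        rw [a, h] at this
        exact lt_irrefl _ this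
      simp [this]
    · rfl
  · rw [mul_div_cancel₀ _ h]

lemma tower [Fintype β] (h0 : ∀ ω, 0 ≤ r ω) (T : Ω → β) (F : Ω → ℝ) (G : β → ℝ) :
    ∑ ω, r ω * (F ω * G (T ω)) = ∑ ω, r ω * (ce r T F (T ω) * G (T ω)) := by
  rw [sum_push r T (fun t => ce r T F t * G t)]
  simp only [← mul_assoc]
  rw [sum_push (fun ω => r ω * F ω) T G]
  exact Finset.sum_congr rfl fun t _ => by rw [fib_mul_ce h0]

lemma ce_nonneg (h0 : ∀ ω, 0 ≤ r ω) (T : Ω → β) {F : Ω → ℝ} (F0 : ∀ ω, 0 ≤ F ω) (t : β) :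
    0 ≤ ce r T F t :=
  div_nonneg (fib_nonneg (fun ω => mul_nonneg (h0 ω) (F0 ω)) T t) (fib_nonneg h0 T t)

lemma ce_le_one (h0 : ∀ ω, 0 ≤ r ω) (T : Ω → β) {F : Ω → ℝ} (F1 : ∀ ω, F ω ≤ 1) (t : β) :
    ce r T F t ≤ 1 := by
  unfold ce
  refine div_le_one_of_le₀ (fib_mono (fun ω => ?_) T t) (fib_nonneg h0 T t)
  exact mul_le_of_le_one_right (h0 ω) (F1 ω)

lemma ce_pos (h0 : ∀ ω, 0 ≤ r ω) (T : Ω → β) {F : Ω → ℝ} (F0 : ∀ ω, 0 ≤ F ω) {ω : Ω}
    (h : r ω ≠ 0) (hF : F ω ≠ 0) : 0 < ce r T F (T ω) :=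
  div_pos (fib_pos (r := fun ω => r ω * F ω) (fun ω => mul_nonneg (h0 ω) (F0 ω)) T
    (mul_ne_zero h hF)) (fib_pos h0 T h)

lemma fib_pair {α : Type} [Fintype α] [DecidableEq α] (r : Ω → ℝ) (X : Ω → α) (T : Ω → β)
    (c : α → ℝ) (t : β) :
    ∑ x, fib r (fun ω => (X ω, T ω)) (x, t) * c x = fib (fun ω => r ω * c (X ω)) T t := by
  unfold fib
  simp only [Finset.sum_mul]
  rw [Finset.sum_comm]
  refine Finset.sum_congr rfl fun ω _ => ?_
  rw [Finset.sum_eq_single (X ω)]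
  · by_cases h : T ω = t <;> simp [h]
  · intro v _ hv
    simp [Ne.symm hv]
  · simp

lemma young_sqrt {a b : ℝ} (ha : 0 ≤ a) (hb : 0 ≤ b) :
    3 * (a * Real.sqrt b) ≤ 2 * (a * Real.sqrt a) + b * Real.sqrt b := by
  have e1 := Real.mul_self_sqrt ha
  have e2 := Real.mul_self_sqrt hb
  have p1 := Real.sqrt_nonneg a
  have p2 := Real.sqrt_nonneg b
  set u := Real.sqrt a
  set v := Real.sqrt b
  rw [← e1, ← e2]
  nlinarith [mul_nonneg (sq_nonneg (u - v)) (by linarith : 0 ≤ 2 * u + v)]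

lemma refine_le [Fintype β] {γ : Type} [Fintype γ] [DecidableEq γ] (h0 : ∀ ω, 0 ≤ r ω)
    (S : Ω → γ) (φ : γ → β) {F : Ω → ℝ} (F0 : ∀ ω, 0 ≤ F ω) :
    ∑ ω, r ω * (F ω * Real.sqrt (ce r (fun ω => φ (S ω)) F (φ (S ω))))
      ≤ ∑ ω, r ω * (F ω * Real.sqrt (ce r S F (S ω))) := by
  have a := tower h0 S F (fun s => Real.sqrt (ce r (fun ω => φ (S ω)) F (φ s)))
  have b := tower h0 S F (fun s => Real.sqrt (ce r S F s))
  have c := tower h0 (fun ω => φ (S ω)) F (fun t => Real.sqrt (ce r (fun ω => φ (S ω)) F t))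
  have d : 3 * ∑ ω, r ω * (ce r S F (S ω) * Real.sqrt (ce r (fun ω => φ (S ω)) F (φ (S ω))))
      ≤ 2 * ∑ ω, r ω * (ce r S F (S ω) * Real.sqrt (ce r S F (S ω)))
        + ∑ ω, r ω * (ce r (fun ω => φ (S ω)) F (φ (S ω))
          * Real.sqrt (ce r (fun ω => φ (S ω)) F (φ (S ω)))) := by
    rw [Finset.mul_sum, Finset.mul_sum, ← Finset.sum_add_distrib]
    refine Finset.sum_le_sum fun ω _ => ?_
    have := mul_le_mul_of_nonneg_left (young_sqrt (ce_nonneg h0 S F0 (S ω))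
      (ce_nonneg h0 (fun ω => φ (S ω)) F0 (φ (S ω)))) (h0 ω)
    linarith
  linarith

end cells

end Vale.Agent.P064
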