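import Vale.Agent.P064.Cell

open Finset

namespace Vale.Agent.P064

section step

variable {Ω α τ : Type} [Fintype Ω] [Fintype α] [DecidableEq α] [Fintype τ] [DecidableEq τ]
  {r : Ω → ℝ}

lemma step_code (h0 : ∀ ω, 0 ≤ r ω) (h1 : ∑ ω, r ω = 1) (X : Ω → α) (T : Ω → τ) (b : Ω → Bool)
    (c : α → ℝ) (c0 : ∀ x, 0 ≤ c x) (c1 : ∀ x, c x ≤ 1)
    (hb : ∀ ω, r ω ≠ 0 → b ω = true → c (X ω) = 1) :
    ne r (fun ω => (X ω, T ω)) - ne r (fun ω => ((X ω, T ω), b ω))
      ≤ ∑ ω, r ω * (if b ω then 1 - (1 / 2) * Real.log (ce r T (fun ω => c (X ω)) (T ω)) else 0)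
        + ∑ ω, r ω * (c (X ω) * Real.sqrt (ce r T (fun ω => c (X ω)) (T ω))) := by
  set ρ := ce r T (fun ω => c (X ω)) with hρ
  have ρ0 : ∀ t, 0 ≤ ρ t := fun t => ce_nonneg h0 T (fun ω => c0 _) t
  have ρ1 : ∀ t, ρ t ≤ 1 := fun t => ce_le_one h0 T (fun ω => c1 _) t
  set π : α × τ → ℝ := fun z => (1 / 2) * (c z.1 * Real.sqrt (ρ z.2)) with hπ
  have π0 : ∀ z, 0 ≤ π z := fun z =>
    mul_nonneg (by norm_num) (mul_nonneg (c0 _) (Real.sqrt_nonneg _))
  have π1 : ∀ z, π z ≤ 1 / 2 := fun z => by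
    have a : Real.sqrt (ρ z.2) ≤ 1 := Real.sqrt_le_one.2 (ρ1 _)
    have := mul_le_one₀ (c1 z.1) (Real.sqrt_nonneg (ρ z.2)) a
    simp only [hπ]
    linarith
  set q : (α × τ) × Bool → ℝ := fun v => if v.2 then π v.1 else 1 - π v.1 with hq
  have q0 : ∀ v, 0 ≤ q v := fun v => by
    simp only [hq]
    split_ifs
    · exact π0 _
    · linarith [π1 v.1]
  have qp : ∀ ω, r ω ≠ 0 → 0 < q ((X ω, T ω), b ω) := by
    intro ω h
    simp only [hq]
    split_ifs with a
    · have e := hb ω h a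
      have : 0 < ρ (T ω) := ce_pos h0 T (fun ω => c0 _) h (by rw [e]; norm_num)
      simp only [hπ, e]
      have := Real.sqrt_pos.2 this
      positivity
    · linarith [π1 (X ω, T ω)]
  have key := gibbs_push h0 h1 (fun ω => ((X ω, T ω), b ω))
    (fun v => fib r (fun ω => (X ω, T ω)) v.1 * q v)
    (fun v => mul_nonneg (fib_nonneg h0 _ _) (q0 v))
    (by
      rw [Fintype.sum_prod_type]
      simp only [← Finset.mul_sum, Fintype.sum_bool, hq]
      simp only [if_true, Bool.false_eq_true, if_false, add_sub_cancel, mul_one]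
      rw [sum_fib, h1])
    (fun ω h => mul_pos (fib_pos h0 (fun ω => (X ω, T ω)) h) (qp ω h))
  have h2 : ne r (fun ω => (X ω, T ω))
      - (∑ ω, r ω * (if b ω then 1 - (1 / 2) * Real.log (ρ (T ω)) else 0)
        + ∑ ω, r ω * (c (X ω) * Real.sqrt (ρ (T ω))))
      ≤ ∑ ω, r ω * Real.log (fib r (fun ω => (X ω, T ω)) (X ω, T ω) * q ((X ω, T ω), b ω)) := by
    unfold ne
    rw [← Finset.sum_add_distrib, ← Finset.sum_sub_distrib]
    refine Finset.sum_le_sum fun ω _ => ?_
    by_cases h : r ω = 0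
    · simp [h]
    rw [Real.log_mul (fib_pos h0 (fun ω => (X ω, T ω)) h).ne' (qp ω h).ne', ← mul_add, ← mul_sub]
    refine mul_le_mul_of_nonneg_left ?_ (h0 ω)
    have p : 0 ≤ c (X ω) * Real.sqrt (ρ (T ω)) := mul_nonneg (c0 _) (Real.sqrt_nonneg _)
    simp only [hq]
    split_ifs with a
    · have e := hb ω h a
      have hp : 0 < ρ (T ω) := ce_pos h0 T (fun ω => c0 _) h (by rw [e]; norm_num)
      simp only [hπ, e, one_mul] at p ⊢
      rw [Real.log_mul (by norm_num) (Real.sqrt_pos.2 hp).ne', Real.log_sqrt hp.le, one_div,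
        Real.log_inv]
      have := Real.log_two_lt_d9
      linarith
    · have := log_one_sub (π0 (X ω, T ω)) (π1 (X ω, T ω))
      simp only [hπ] at this ⊢
      linarith
  linarith

lemma step_info (h0 : ∀ ω, 0 ≤ r ω) (h1 : ∑ ω, r ω = 1) (X : Ω → α) (T : Ω → τ) (b : Ω → Bool)
    (c : α → ℝ) (c0 : ∀ x, 0 ≤ c x)
    (hb : ∀ ω, r ω ≠ 0 → b ω = true → c (X ω) = 1) :
    ne r (fun ω => (X ω, T ω)) + ne r (fun ω => (T ω, b ω)) - ne r T
      - ∑ ω, r ω * (if b ω then Real.log (ce r T (fun ω => c (X ω)) (T ω)) else 0)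
      ≤ ne r (fun ω => ((X ω, T ω), b ω)) := by
  set ρ := ce r T (fun ω => c (X ω)) with hρ
  have ρ0 : ∀ t, 0 ≤ ρ t := fun t => ce_nonneg h0 T (fun ω => c0 _) t
  set q : (α × τ) × Bool → ℝ := fun v => if v.2 then c v.1.1 / ρ v.1.2 else 1 with hq
  have q0 : ∀ v, 0 ≤ q v := fun v => by
    simp only [hq]
    split_ifs
    · exact div_nonneg (c0 _) (ρ0 _)
    · norm_num
  have qp : ∀ ω, r ω ≠ 0 → 0 < q ((X ω, T ω), b ω) := by
    intro ω h
    simp only [hq]
    split_ifs with a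
    · have e := hb ω h a
      have : 0 < ρ (T ω) := ce_pos h0 T (fun ω => c0 _) h (by rw [e]; norm_num)
      rw [e]
      positivity
    · norm_num
  have hs : ∀ t (v : Bool), ∑ x, fib r (fun ω => (X ω, T ω)) (x, t) * q ((x, t), v)
      ≤ fib r T t := by
    intro t v
    cases v
    · have := fib_pair r X T (fun _ => 1) t
      simp only [hq, Bool.false_eq_true, if_false]
      simp only [mul_one] at this ⊢
      exact this.le
    · simp only [hq, if_true, div_eq_mul_inv, ← mul_assoc, ← Finset.sum_mul]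
      rw [fib_pair r X T c t, ← fib_mul_ce h0 T (fun ω => c (X ω)) t, ← hρ, mul_assoc]
      refine mul_le_of_le_one_right (fib_nonneg h0 _ _) ?_
      by_cases h : ρ t = 0
      · simp [h]
      · rw [mul_inv_cancel₀ h]
  have key := gibbs_push h0 h1 (fun ω => ((X ω, T ω), b ω))
    (fun v => fib r (fun ω => (X ω, T ω)) v.1 * q v
      * (fib r (fun ω => (T ω, b ω)) (v.1.2, v.2) / fib r T v.1.2))
    (fun v => mul_nonneg (mul_nonneg (fib_nonneg h0 _ _) (q0 v))
      (div_nonneg (fib_nonneg h0 _ _) (fib_nonneg h0 _ _)))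
    (by
      rw [← h1, ← sum_fib r (fun ω => (T ω, b ω)), Fintype.sum_prod_type, Fintype.sum_prod_type,
        Fintype.sum_prod_type, Finset.sum_comm]
      refine Finset.sum_le_sum fun t _ => ?_
      rw [Finset.sum_comm]
      refine Finset.sum_le_sum fun v _ => ?_
      simp only [← Finset.sum_mul]
      refine le_trans (mul_le_mul_of_nonneg_right (hs t v)
        (div_nonneg (fib_nonneg h0 _ _) (fib_nonneg h0 _ _))) ?_
      by_cases h : fib r T t = 0
      · simp [h, fib_nonneg h0]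
      · rw [mul_div_cancel₀ _ h])
    (fun ω h => mul_pos (mul_pos (fib_pos h0 (fun ω => (X ω, T ω)) h) (qp ω h))
      (div_pos (fib_pos h0 (fun ω => (T ω, b ω)) h) (fib_pos h0 T h)))
  refine le_trans (le_of_eq ?_) key
  unfold ne
  rw [← Finset.sum_add_distrib, ← Finset.sum_sub_distrib, ← Finset.sum_sub_distrib]
  refine Finset.sum_congr rfl fun ω _ => ?_
  by_cases h : r ω = 0
  · simp [h]
  have a1 := fib_pos h0 (fun ω => (X ω, T ω)) h
  have a2 := fib_pos h0 (fun ω => (T ω, b ω)) h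
  have a3 := fib_pos h0 T h
  have a4 := qp ω h
  rw [Real.log_mul (mul_pos a1 a4).ne' (div_pos a2 a3).ne', Real.log_mul a1.ne' a4.ne',
    Real.log_div a2.ne' a3.ne']
  simp only [hq]
  split_ifs with a
  · rw [hb ω h a, one_div, Real.log_inv]
    ring
  · rw [Real.log_one]
    ring

end step

section code

variable {α Y : Type} [Fintype α] [DecidableEq α] [Fintype Y] [DecidableEq Y]
  {r : α × Finset Y → ℝ}

lemma code_aux (h0 : ∀ ω, 0 ≤ r ω) (h1 : ∑ ω, r ω = 1) (U : α → Finset Y)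
    (hU : ∀ ω, r ω ≠ 0 → ω.2 ⊆ U ω.1) (A : Finset Y) :
    ne r Prod.fst - ne r (fun ω => (ω.1, ω.2 ∩ A))
      ≤ ∑ y ∈ A, ∑ ω, r ω * chi ω.2 y
        + (1 / 2) * (ne r (fun ω => (ω.1, ω.2 ∩ A)) - ne r Prod.fst - ne r (fun ω => ω.2 ∩ A))
        + ∑ y ∈ A, ∑ ω, r ω * (chi (U ω.1) y
          * Real.sqrt (ce r Prod.snd (fun ω => chi (U ω.1) y) ω.2)) := by
  induction A using Finset.induction_on with
  | empty =>
    have a : ne r (fun ω : α × Finset Y => (ω.1, ω.2 ∩ (∅ : Finset Y))) = ne r Prod.fst :=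
      ne_congr r _ _ fun ω ω' => by simp
    have b : ne r (fun ω : α × Finset Y => ω.2 ∩ (∅ : Finset Y)) = 0 := by
      unfold ne fib
      simp [h1]
    rw [a, b]
    simp
  | insert y A hy ih =>
    have hi : ∀ s s' : Finset Y, s' ∩ insert y A = s ∩ insert y A
        ↔ s' ∩ A = s ∩ A ∧ decide (y ∈ s') = decide (y ∈ s) := by
      intro s s'
      simp only [Finset.ext_iff, Finset.mem_inter, Finset.mem_insert, decide_eq_decide]
      constructor
      · intro h
        refine ⟨fun a => ?_, ?_⟩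
        · have := h a
          tauto
        · have := h y
          tauto
      · rintro ⟨h, h'⟩ a
        have := h a
        by_cases e : a = y
        · subst e
          tauto
        · tauto
    have a : ne r (fun ω : α × Finset Y => (ω.1, ω.2 ∩ insert y A))
        = ne r (fun ω : α × Finset Y => ((ω.1, ω.2 ∩ A), decide (y ∈ ω.2))) :=
      ne_congr r _ _ fun ω ω' => by simp only [Prod.mk.injEq, hi, and_assoc]
    have b : ne r (fun ω : α × Finset Y => ω.2 ∩ insert y A)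
        = ne r (fun ω : α × Finset Y => (ω.2 ∩ A, decide (y ∈ ω.2))) :=
      ne_congr r _ _ fun ω ω' => by simp only [Prod.mk.injEq, hi]
    have hb : ∀ ω : α × Finset Y, r ω ≠ 0 → decide (y ∈ ω.2) = true → chi (U ω.1) y = 1 := by
      intro ω h e
      simp [chi, hU ω h (of_decide_eq_true e)]
    have s1 := step_code h0 h1 Prod.fst (fun ω => ω.2 ∩ A) (fun ω => decide (y ∈ ω.2))
      (fun x => chi (U x) y) (fun x => chi_nonneg _ _) (fun x => chi_le_one _ _) hb
    have s2 := step_info h0 h1 Prod.fst (fun ω => ω.2 ∩ A) (fun ω => decide (y ∈ ω.2))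
      (fun x => chi (U x) y) (fun x => chi_nonneg _ _) hb
    have s3 := refine_le h0 Prod.snd (fun s : Finset Y => s ∩ A)
      (F := fun ω : α × Finset Y => chi (U ω.1) y) (fun ω => chi_nonneg _ _)
    have s4 : ∑ ω : α × Finset Y, r ω * (if decide (y ∈ ω.2) then 1 - (1 / 2) * Real.log
          (ce r (fun ω => ω.2 ∩ A) (fun ω => chi (U ω.1) y) (ω.2 ∩ A)) else 0)
        = ∑ ω, r ω * chi ω.2 y - (1 / 2) * ∑ ω : α × Finset Y, r ω * (if decide (y ∈ ω.2) then
          Real.log (ce r (fun ω => ω.2 ∩ A) (fun ω => chi (U ω.1) y) (ω.2 ∩ A)) else 0) := by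
      rw [Finset.mul_sum, ← Finset.sum_sub_distrib]
      refine Finset.sum_congr rfl fun ω _ => ?_
      by_cases e : y ∈ ω.2
      · simp only [chi, e, decide_true, if_true]
        ring
      · simp [chi, e]
    rw [a, b, Finset.sum_insert hy, Finset.sum_insert hy]
    rw [s4] at s1
    linarith

/-- The coding lemma: conditional entropy of a random subset against its information. -/
theorem code (h0 : ∀ ω, 0 ≤ r ω) (h1 : ∑ ω, r ω = 1) (U : α → Finset Y)
    (hU : ∀ ω, r ω ≠ 0 → ω.2 ⊆ U ω.1) :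
    ne r Prod.fst - ne r id
      ≤ ∑ y, ∑ ω, r ω * chi ω.2 y + (1 / 2) * (ne r id - ne r Prod.fst - ne r Prod.snd)
        + ∑ y, ∑ ω, r ω * (chi (U ω.1) y
          * Real.sqrt (ce r Prod.snd (fun ω => chi (U ω.1) y) ω.2)) := by
  have := code_aux h0 h1 U hU univ
  simp only [Finset.inter_univ] at this
  exact this

end code

end Vale.Agent.P064
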