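import Vale.Agent.P064.Avg

open Finset Pointwise

namespace Vale.Agent.P064

variable {Γ : Type} [Group Γ] [Fintype Γ] {Y : Type} [Fintype Y] [DecidableEq Y] [MulAction Γ Y]
  {α : Type} [Fintype α] [DecidableEq α] [MulAction Γ α]

/-- Relative entropy. -/
noncomputable def kl {α : Type} [Fintype α] (μ ν : α → ℝ) : ℝ :=
  ∑ x, μ x * (Real.log (μ x) - Real.log (ν x))

/-- Marginal probability of a point. -/
noncomputable def mrg {α Y : Type} [Fintype α] [DecidableEq Y] (U : α → Finset Y) (μ : α → ℝ)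
    (y : Y) : ℝ := ∑ x, μ x * chi (U x) y

/-- Joint law of a sample and its overlap with an independent sample. -/
noncomputable def pj (U : α → Finset Y) (μ : α → ℝ) : α × Finset Y → ℝ :=
  fib (fun z : α × α => μ z.1 * μ z.2) (fun z => (z.1, U z.1 ∩ U z.2))

/-- The resampled joint law. -/
noncomputable def rs (Γ : Type) [Group Γ] [Fintype Γ] [MulAction Γ Y] [MulAction Γ α]
    (U : α → Finset Y) (μ : α → ℝ) (ω : α × Finset Y) : ℝ :=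
  μ ω.1 * (avg Γ (pj U μ) ω / avg Γ μ ω.1)

/-- The law of the randomly placed overlap. -/
noncomputable def sg (Γ : Type) [Group Γ] [Fintype Γ] [MulAction Γ Y] [MulAction Γ α]
    (U : α → Finset Y) (μ : α → ℝ) (s : Finset Y) : ℝ := ∑ x, avg Γ (pj U μ) (x, s)

variable {U : α → Finset Y} {μ : α → ℝ}

omit [Fintype Y] in
lemma pj_nonneg (h0 : ∀ x, 0 ≤ μ x) (ω : α × Finset Y) : 0 ≤ pj U μ ω :=
  fib_nonneg (fun _ => mul_nonneg (h0 _) (h0 _)) _ _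

lemma sum_pj (φ : α × Finset Y → ℝ) :
    ∑ ω, pj U μ ω * φ ω = ∑ z : α × α, μ z.1 * μ z.2 * φ (z.1, U z.1 ∩ U z.2) :=
  (sum_push (fun z : α × α => μ z.1 * μ z.2) (fun z => (z.1, U z.1 ∩ U z.2)) φ).symm

lemma sum_pj' (φ : α × Finset Y → ℝ) :
    ∑ ω, pj U μ ω * φ ω = ∑ z : α × α, μ z.1 * μ z.2 * φ (z.2, U z.1 ∩ U z.2) := by
  rw [sum_pj, ← Equiv.sum_comp (Equiv.prodComm α α)]
  refine Finset.sum_congr rfl fun z _ => ?_
  simp only [Equiv.prodComm_apply, Prod.fst_swap, Prod.snd_swap]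
  rw [Finset.inter_comm, mul_comm (μ z.2)]

omit [Fintype Y] in
lemma pj_supp {ω : α × Finset Y} (h : pj U μ ω ≠ 0) : ω.2 ⊆ U ω.1 := by
  obtain ⟨z, _, hz⟩ := Finset.exists_ne_zero_of_sum_ne_zero h
  by_cases e : (z.1, U z.1 ∩ U z.2) = ω
  · rw [← e]
    exact Finset.inter_subset_left
  · simp [e] at hz

lemma sum_pj_snd (h1 : ∑ x, μ x = 1) (x : α) : ∑ s, pj U μ (x, s) = μ x := by
  have a := sum_pj (U := U) (μ := μ) (fun ω => if ω.1 = x then 1 else 0)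
  rw [Fintype.sum_prod_type, Fintype.sum_prod_type] at a
  simp only [mul_ite, mul_one, mul_zero] at a
  rw [Finset.sum_eq_single x, Finset.sum_eq_single x] at a
  · simp only [if_true, ← Finset.mul_sum, h1, mul_one] at a
    exact a
  · intro v _ hv
    simp [hv]
  · simp
  · intro v _ hv
    simp [hv]
  · simp

lemma sum_avg_pj (h1 : ∑ x, μ x = 1) (x : α) : ∑ s, avg Γ (pj U μ) (x, s) = avg Γ μ x := by
  unfold avg
  rw [← Finset.sum_div, Finset.sum_comm]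
  congr 1
  refine Finset.sum_congr rfl fun g _ => ?_
  rw [← sum_pj_snd (U := U) h1 (g • x), ← sum_smul_eq g (fun s => pj U μ (g • x, s))]
  rfl

omit [Fintype Y] in
lemma rs_nonneg (h0 : ∀ x, 0 ≤ μ x) (ω : α × Finset Y) : 0 ≤ rs Γ U μ ω :=
  mul_nonneg (h0 _) (div_nonneg (avg_nonneg (pj_nonneg h0) _) (avg_nonneg h0 _))

omit [Fintype Y] in
lemma rs_supp (hU : ∀ (g : Γ) x, U (g • x) = g • U x) {ω : α × Finset Y} (h : rs Γ U μ ω ≠ 0) :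
    μ ω.1 ≠ 0 ∧ avg Γ (pj U μ) ω ≠ 0 ∧ ω.2 ⊆ U ω.1 := by
  have a := left_ne_zero_of_mul h
  have b : avg Γ (pj U μ) ω ≠ 0 := (div_ne_zero_iff.1 (right_ne_zero_of_mul h)).1
  refine ⟨a, b, ?_⟩
  obtain ⟨g, hg⟩ := avg_ne_zero b
  have := pj_supp hg
  simp only [Prod.smul_fst, Prod.smul_snd, hU, Finset.smul_finset_subset_smul_finset_iff] at this
  exact this

lemma sum_rs_snd (h0 : ∀ x, 0 ≤ μ x) (h1 : ∑ x, μ x = 1) (x : α) :
    ∑ s, rs Γ U μ (x, s) = μ x := by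
  unfold rs
  simp only [← Finset.mul_sum, ← Finset.sum_div, sum_avg_pj h1]
  by_cases h : μ x = 0
  · simp [h]
  · rw [div_self (avg_pos h0 h).ne', mul_one]

lemma sum_rs_fst (h0 : ∀ x, 0 ≤ μ x) (h1 : ∑ x, μ x = 1) (φ : α → ℝ) :
    ∑ ω, rs Γ U μ ω * φ ω.1 = ∑ x, μ x * φ x := by
  rw [Fintype.sum_prod_type]
  simp only [← Finset.sum_mul, sum_rs_snd h0 h1]

lemma sum_rs (h0 : ∀ x, 0 ≤ μ x) (h1 : ∑ x, μ x = 1) : ∑ ω, rs Γ U μ ω = 1 := by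
  have := sum_rs_fst (Γ := Γ) (U := U) h0 h1 fun _ => 1
  simpa [h1] using this

lemma avg_rs (h0 : ∀ x, 0 ≤ μ x) (h1 : ∑ x, μ x = 1) (ω : α × Finset Y) :
    avg Γ (rs Γ U μ) ω = avg Γ (pj U μ) ω := by
  have a := avg_mul_inv (Γ := Γ) (fun ω : α × Finset Y => μ ω.1)
    (fun ω => avg Γ (pj U μ) ω / avg Γ μ ω.1)
    (fun g z => by simp only [Prod.smul_fst, avg_smul]) ω
  have b : avg Γ (fun ω : α × Finset Y => μ ω.1) ω = avg Γ μ ω.1 := rfl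
  refine a.trans ?_
  rw [b]
  by_cases h : avg Γ μ ω.1 = 0
  · have c := sum_avg_pj (Γ := Γ) (U := U) h1 ω.1
    rw [h, Finset.sum_eq_zero_iff_of_nonneg (fun s _ => avg_nonneg (pj_nonneg h0) _)] at c
    rw [h, zero_mul]
    exact (c ω.2 (Finset.mem_univ _)).symm
  · rw [mul_div_cancel₀ _ h]

lemma sum_rs_inv (h0 : ∀ x, 0 ≤ μ x) (h1 : ∑ x, μ x = 1) (φ : α × Finset Y → ℝ)
    (hφ : ∀ (g : Γ) z, φ (g • z) = φ z) : ∑ ω, rs Γ U μ ω * φ ω = ∑ ω, pj U μ ω * φ ω := by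
  rw [← sum_avg_mul (Γ := Γ) _ φ hφ, ← sum_avg_mul (Γ := Γ) (pj U μ) φ hφ]
  simp only [avg_rs h0 h1]

omit [DecidableEq α] in
lemma fib_snd (r : α × Finset Y → ℝ) (s : Finset Y) : fib r Prod.snd s = ∑ x, r (x, s) := by
  unfold fib
  rw [Fintype.sum_prod_type]
  simp

lemma fib_fst (r : α × Finset Y → ℝ) (x : α) : fib r Prod.fst x = ∑ s, r (x, s) := by
  unfold fib
  rw [Fintype.sum_prod_type_right]
  simp

lemma fib_id {Ω : Type} [Fintype Ω] [DecidableEq Ω] (r : Ω → ℝ) (ω : Ω) : fib r id ω = r ω := by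
  simp [fib]

lemma avg_fib_rs (h0 : ∀ x, 0 ≤ μ x) (h1 : ∑ x, μ x = 1) (s : Finset Y) :
    avg Γ (fib (rs Γ U μ) Prod.snd) s = sg Γ U μ s := by
  unfold sg
  simp only [← avg_rs h0 h1]
  unfold avg
  rw [← Finset.sum_div, Finset.sum_comm]
  congr 1
  refine Finset.sum_congr rfl fun g _ => ?_
  rw [fib_snd, ← sum_smul_eq g (fun x => rs Γ U μ (x, g • s))]
  rfl

omit [Fintype Y] in
lemma sg_smul (g : Γ) (s : Finset Y) : sg Γ U μ (g • s) = sg Γ U μ s := by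
  unfold sg
  rw [← sum_smul_eq g (fun x => avg Γ (pj U μ) (x, g • s))]
  exact Finset.sum_congr rfl fun x _ => avg_smul (pj U μ) g (x, s)

omit [Fintype Y] in
lemma sg_nonneg (h0 : ∀ x, 0 ≤ μ x) (s : Finset Y) : 0 ≤ sg Γ U μ s :=
  Finset.sum_nonneg fun _ _ => avg_nonneg (pj_nonneg h0) _

omit [Fintype Y] in
lemma le_sg (h0 : ∀ x, 0 ≤ μ x) (ω : α × Finset Y) : avg Γ (pj U μ) ω ≤ sg Γ U μ ω.2 :=
  Finset.single_le_sum (f := fun x => avg Γ (pj U μ) (x, ω.2))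
    (fun _ _ => avg_nonneg (pj_nonneg h0) _) (Finset.mem_univ ω.1)

lemma sum_sg (h1 : ∑ x, μ x = 1) : ∑ s, sg Γ U μ s = 1 := by
  unfold sg
  rw [Finset.sum_comm]
  simp only [sum_avg_pj h1]
  rw [sum_avg, h1]

/-- The invariant reference measure for a pair of samples. -/
noncomputable def nu2 (Γ : Type) [Group Γ] [Fintype Γ] [MulAction Γ Y] [MulAction Γ α]
    (U : α → Finset Y) (μ : α → ℝ) (z : α × α) : ℝ :=
  avg Γ (pj U μ) (z.1, U z.1 ∩ U z.2) * avg Γ (pj U μ) (z.2, U z.1 ∩ U z.2)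
    / sg Γ U μ (U z.1 ∩ U z.2)

omit [Fintype Y] in
lemma nu2_nonneg (h0 : ∀ x, 0 ≤ μ x) (z : α × α) : 0 ≤ nu2 Γ U μ z :=
  div_nonneg (mul_nonneg (avg_nonneg (pj_nonneg h0) _) (avg_nonneg (pj_nonneg h0) _))
    (sg_nonneg h0 _)

omit [Fintype Y] in
lemma nu2_smul (hU : ∀ (g : Γ) x, U (g • x) = g • U x) (g : Γ) (z : α × α) :
    nu2 Γ U μ (g • z) = nu2 Γ U μ z := by
  unfold nu2
  simp only [Prod.smul_fst, Prod.smul_snd, hU, ← Finset.smul_finset_inter, sg_smul]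
  rw [← avg_smul (pj U μ) g (z.1, U z.1 ∩ U z.2), ← avg_smul (pj U μ) g (z.2, U z.1 ∩ U z.2)]
  rfl

lemma sum_nu2 (h0 : ∀ x, 0 ≤ μ x) (h1 : ∑ x, μ x = 1) : ∑ z, nu2 Γ U μ z ≤ 1 := by
  have a : ∀ z : α × α, nu2 Γ U μ z
      ≤ ∑ s, avg Γ (pj U μ) (z.1, s) * avg Γ (pj U μ) (z.2, s) / sg Γ U μ s := fun z =>
    Finset.single_le_sum
      (f := fun s => avg Γ (pj U μ) (z.1, s) * avg Γ (pj U μ) (z.2, s) / sg Γ U μ s)
      (fun s _ => div_nonneg (mul_nonneg (avg_nonneg (pj_nonneg h0) _)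
        (avg_nonneg (pj_nonneg h0) _)) (sg_nonneg h0 _)) (Finset.mem_univ (U z.1 ∩ U z.2))
  refine (Finset.sum_le_sum fun z _ => a z).trans ?_
  rw [Finset.sum_comm, ← sum_sg (Γ := Γ) (U := U) h1]
  refine Finset.sum_le_sum fun s _ => ?_
  rw [← Finset.sum_div, Fintype.sum_prod_type]
  dsimp only
  rw [← Finset.sum_mul_sum]
  change sg Γ U μ s * sg Γ U μ s / sg Γ U μ s ≤ _
  by_cases h : sg Γ U μ s = 0
  · simp [h]
  · rw [mul_div_cancel_right₀ _ h]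

omit [Fintype Y] in
lemma pair_pos (h0 : ∀ x, 0 ≤ μ x) {z : α × α} (h : μ z.1 * μ z.2 ≠ 0) :
    0 < avg Γ (pj U μ) (z.1, U z.1 ∩ U z.2) ∧ 0 < avg Γ (pj U μ) (z.2, U z.1 ∩ U z.2)
      ∧ 0 < sg Γ U μ (U z.1 ∩ U z.2) := by
  have a : 0 < avg Γ (pj U μ) (z.1, U z.1 ∩ U z.2) := avg_pos (pj_nonneg h0)
    (fib_pos (r := fun z : α × α => μ z.1 * μ z.2) (fun _ => mul_nonneg (h0 _) (h0 _))
      (fun z => (z.1, U z.1 ∩ U z.2)) h).ne'
  refine ⟨a, ?_, lt_of_lt_of_le a (le_sg h0 (z.1, U z.1 ∩ U z.2))⟩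
  rw [Finset.inter_comm]
  exact avg_pos (pj_nonneg h0)
    (fib_pos (r := fun z : α × α => μ z.1 * μ z.2) (fun _ => mul_nonneg (h0 _) (h0 _))
      (fun z => (z.1, U z.1 ∩ U z.2)) (ω := (z.2, z.1)) (by rwa [mul_comm])).ne'

lemma kl_pair (h0 : ∀ x, 0 ≤ μ x) (h1 : ∑ x, μ x = 1) :
    kl (fun z : α × α => μ z.1 * μ z.2) (nu2 Γ U μ)
      = 2 * ∑ x, μ x * Real.log (μ x) - 2 * ∑ ω, rs Γ U μ ω * Real.log (avg Γ (pj U μ) ω)
        + ∑ ω, rs Γ U μ ω * Real.log (sg Γ U μ ω.2) := by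
  rw [sum_rs_inv h0 h1 _ (fun g z => by rw [avg_smul]),
    sum_rs_inv h0 h1 _ (fun g z => by rw [Prod.smul_snd, sg_smul])]
  have b := bilin μ h1 (fun x => Real.log (μ x)) 0 1
  have c1 := sum_pj (U := U) (μ := μ) (fun ω => Real.log (avg Γ (pj U μ) ω))
  have c2 := sum_pj' (U := U) (μ := μ) (fun ω => Real.log (avg Γ (pj U μ) ω))
  have c3 := sum_pj (U := U) (μ := μ) (fun ω => Real.log (sg Γ U μ ω.2))
  have e : kl (fun z : α × α => μ z.1 * μ z.2) (nu2 Γ U μ)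
      = ∑ z : α × α, μ z.1 * μ z.2 * (0 * (Real.log (μ z.1) * Real.log (μ z.2))
          + 1 * (Real.log (μ z.1) + Real.log (μ z.2)))
        - ∑ z : α × α, μ z.1 * μ z.2 * Real.log (avg Γ (pj U μ) (z.1, U z.1 ∩ U z.2))
        - ∑ z : α × α, μ z.1 * μ z.2 * Real.log (avg Γ (pj U μ) (z.2, U z.1 ∩ U z.2))
        + ∑ z : α × α, μ z.1 * μ z.2 * Real.log (sg Γ U μ (U z.1 ∩ U z.2)) := by
    unfold kl
    rw [← Finset.sum_sub_distrib, ← Finset.sum_sub_distrib, ← Finset.sum_add_distrib]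
    refine Finset.sum_congr rfl fun z _ => ?_
    by_cases h : μ z.1 * μ z.2 = 0
    · simp [h]
    obtain ⟨p1, p2, p3⟩ := pair_pos (Γ := Γ) (U := U) h0 h
    unfold nu2
    rw [Real.log_div (mul_pos p1 p2).ne' p3.ne', Real.log_mul p1.ne' p2.ne',
      Real.log_mul (left_ne_zero_of_mul h) (right_ne_zero_of_mul h)]
    ring
  rw [e, b]
  linarith

lemma ne_rs_fst (h0 : ∀ x, 0 ≤ μ x) (h1 : ∑ x, μ x = 1) :
    ne (rs Γ U μ) Prod.fst = ∑ x, μ x * Real.log (μ x) := by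
  unfold ne
  simp only [fib_fst, sum_rs_snd h0 h1]
  exact sum_rs_fst h0 h1 fun x => Real.log (μ x)

lemma ne_rs_id (hU : ∀ (g : Γ) x, U (g • x) = g • U x) (h0 : ∀ x, 0 ≤ μ x) (h1 : ∑ x, μ x = 1) :
    ne (rs Γ U μ) id = ∑ x, μ x * Real.log (μ x) + ∑ ω, rs Γ U μ ω * Real.log (avg Γ (pj U μ) ω)
      - ∑ x, μ x * Real.log (avg Γ μ x) := by
  rw [← sum_rs_fst (Γ := Γ) (U := U) h0 h1 fun x => Real.log (μ x),
    ← sum_rs_fst (Γ := Γ) (U := U) h0 h1 fun x => Real.log (avg Γ μ x),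
    ← Finset.sum_add_distrib, ← Finset.sum_sub_distrib]
  unfold ne
  refine Finset.sum_congr rfl fun ω _ => ?_
  by_cases h : rs Γ U μ ω = 0
  · simp [h]
  obtain ⟨a, b, _⟩ := rs_supp hU h
  have c := (avg_pos (Γ := Γ) h0 a).ne'
  rw [id, fib_id]
  conv_lhs => rw [show Real.log (rs Γ U μ ω) = _ from by
    unfold rs; rw [Real.log_mul a (div_ne_zero b c), Real.log_div b c]]
  ring

lemma card_eq_chi (s : Finset Y) : (s.card : ℝ) = ∑ y, chi s y := by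
  simp [chi]

omit [Fintype Y] in
lemma chi_inter (s t : Finset Y) (y : Y) : chi (s ∩ t) y = chi s y * chi t y := by
  by_cases a : y ∈ s <;> by_cases b : y ∈ t <;> simp [chi, a, b]

lemma rs_card (h0 : ∀ x, 0 ≤ μ x) (h1 : ∑ x, μ x = 1) :
    ∑ ω, rs Γ U μ ω * (ω.2.card : ℝ) = ∑ y, mrg U μ y ^ 2 := by
  rw [sum_rs_inv h0 h1 _ (fun g z => by rw [Prod.smul_snd, Finset.card_smul_finset]), sum_pj]
  simp only [card_eq_chi, Finset.mul_sum]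
  rw [Finset.sum_comm]
  refine Finset.sum_congr rfl fun y _ => ?_
  have := bilin μ h1 (fun x => chi (U x) y) 1 0
  simp only [chi_inter]
  unfold mrg
  simp only [one_mul, zero_mul, add_zero, mul_zero] at this
  exact this

lemma sg_orb (H : Finset Y) (L : ℝ) (hsp : ∀ D ⊆ H, D.card * L ≤ Real.log (orb Γ D))
    (hU : ∀ (g : Γ) x, U (g • x) = g • U x) (h0 : ∀ x, 0 ≤ μ x) (h1 : ∑ x, μ x = 1)
    (hH : ∀ x, μ x ≠ 0 → U x ⊆ H) :
    ∑ ω, rs Γ U μ ω * Real.log (sg Γ U μ ω.2) ≤ -(L * ∑ y, mrg U μ y ^ 2) := by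
  rw [← rs_card (Γ := Γ) h0 h1, Finset.mul_sum, ← Finset.sum_neg_distrib]
  refine Finset.sum_le_sum fun ω _ => ?_
  by_cases h : rs Γ U μ ω = 0
  · simp [h]
  obtain ⟨a, b, c⟩ := rs_supp hU h
  have p : 0 < sg Γ U μ ω.2 :=
    lt_of_lt_of_le (lt_of_le_of_ne (avg_nonneg (pj_nonneg h0) _) (Ne.symm b)) (le_sg h0 ω)
  have o := orb_mul_le (Γ := Γ) (sg Γ U μ) (sg_nonneg h0) sg_smul ω.2
  rw [sum_sg h1] at o
  have o1 : (0 : ℝ) < orb Γ ω.2 := by exact_mod_cast orb_pos _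
  have o2 := Real.log_nonpos (mul_pos o1 p).le o
  rw [Real.log_mul o1.ne' p.ne'] at o2
  have o3 := hsp ω.2 (c.trans (hH _ a))
  have := mul_le_mul_of_nonneg_left (by linarith : Real.log (sg Γ U μ ω.2) ≤ -(ω.2.card * L))
    (rs_nonneg (Γ := Γ) (U := U) h0 ω)
  linarith

lemma sg_self (H : Finset Y) (L : ℝ)
    (hM : ∀ D : Finset Y, ((univ.filter (fun g : Γ => g • D ⊆ H)).card : ℝ)
      ≤ Fintype.card Γ * Real.exp (-(D.card * L)))
    (hU : ∀ (g : Γ) x, U (g • x) = g • U x) (h0 : ∀ x, 0 ≤ μ x) (h1 : ∑ x, μ x = 1)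
    (hH : ∀ x, μ x ≠ 0 → U x ⊆ H) :
    ∑ ω, rs Γ U μ ω * Real.log (sg Γ U μ ω.2)
      ≤ ne (rs Γ U μ) Prod.snd - L * ∑ y, mrg U μ y ^ 2 := by
  have a := kl_avg H L hM (l := fib (rs Γ U μ) Prod.snd) (fib_nonneg (rs_nonneg h0) _)
    (by rw [sum_fib, sum_rs h0 h1]) (fun s hs => by
      rw [fib_snd] at hs
      obtain ⟨x, _, hx⟩ := Finset.exists_ne_zero_of_sum_ne_zero hs
      obtain ⟨a, _, c⟩ := rs_supp hU hx
      exact c.trans (hH _ a))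
  simp only [avg_fib_rs h0 h1] at a
  rw [← sum_push (rs Γ U μ) Prod.snd (fun s => Real.log (sg Γ U μ s)),
    ← sum_push (rs Γ U μ) Prod.snd (fun s => (s.card : ℝ) * L),
    ← sum_push (rs Γ U μ) Prod.snd (fun s => Real.log (fib (rs Γ U μ) Prod.snd s))] at a
  rw [← rs_card (Γ := Γ) h0 h1, Finset.mul_sum]
  have e : ∑ ω, rs Γ U μ ω * ((ω.2.card : ℝ) * L) = ∑ ω, L * (rs Γ U μ ω * (ω.2.card : ℝ)) :=
    Finset.sum_congr rfl fun ω _ => by ring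
  unfold ne
  linarith

end Vale.Agent.P064
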