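import Mathlib

namespace Vale.Agent.P064

/-- Expectation of `f` over the random graph `G(n,p)` on the vertex set `Fin n`: a graph with
`e` edges has probability `p ^ e * (1 - p) ^ (n.choose 2 - e)`. -/
noncomputable def gnpExp (n : ℕ) (p : ℝ) (f : SimpleGraph (Fin n) → ℝ) : ℝ :=
  ∑ G : SimpleGraph (Fin n),
    p ^ G.edgeSet.ncard * (1 - p) ^ (n.choose 2 - G.edgeSet.ncard) * f G

/-- The threshold `p_c(n,H)`: least `p` in `[0,1]` such that `G(n,p)` contains a copy of `H`
with probability at least one half. -/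
noncomputable def pc (n : ℕ) {V : Type} (H : SimpleGraph V) : ℝ :=
  sInf {p : ℝ | 0 ≤ p ∧ p ≤ 1 ∧
    1 / 2 ≤ gnpExp n p (fun G => if 0 < G.copyCount H then 1 else 0)}

/-- The expectation threshold `p_E(n,H)`: least `p` in `[0,1]` such that every subgraph `F` of
`H` has expected number of copies in `G(n,p)` at least one half. -/
noncomputable def pE (n : ℕ) {V : Type} (H : SimpleGraph V) : ℝ :=
  sInf {p : ℝ | 0 ≤ p ∧ p ≤ 1 ∧
    ∀ F : H.Subgraph, 1 / 2 ≤ gnpExp n p (fun G => (G.copyCount F.coe : ℝ))}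

/-- The fractional expectation threshold: least `p` in `[0,1]` such that every subgraph `F` of
`H` has expected number of copies in `G(n,p)` at least `N(H,F) / 2`. -/
noncomputable def pEfrac (n : ℕ) {V : Type} [Fintype V] (H : SimpleGraph V) : ℝ :=
  sInf {p : ℝ | 0 ≤ p ∧ p ≤ 1 ∧
    ∀ F : H.Subgraph, (H.copyCount F.coe : ℝ) / 2 ≤ gnpExp n p (fun G => (G.copyCount F.coe : ℝ))}

end Vale.Agent.P064
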