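import Vale.Agent.P064.Kernel

open Finset Pointwise

namespace Vale.Agent.P064

/-- Potential for the coding cost of one element. -/
noncomputable def cost (x : ℝ) (s : ℕ) : ℝ := (4 - (s + 4) * (1 / 2) ^ s) * x + 2 * (1 / 2) ^ s

lemma coef_nonneg (u : ℕ) : 0 ≤ 4 - ((u : ℝ) + 4) * (1 / 2) ^ u := by
  induction u with
  | zero => norm_num
  | succ u ih =>
    have h : (0 : ℝ) ≤ (1 / 2) ^ u := by positivity
    have hu : (0 : ℝ) ≤ u := Nat.cast_nonneg u
    push_cast
    rw [pow_succ]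
    nlinarith [mul_nonneg hu h]

lemma cost_nonneg {x : ℝ} (hx : 0 ≤ x) (s : ℕ) : 0 ≤ cost x s := by
  unfold cost
  have := coef_nonneg s
  positivity

lemma cost_le {x : ℝ} (hx : 0 ≤ x) (s : ℕ) : cost x s ≤ 4 * x + 2 * (1 / 2) ^ s := by
  unfold cost
  have : 0 ≤ ((s : ℝ) + 4) * (1 / 2) ^ s * x := by positivity
  nlinarith

lemma log_half_pow (s : ℕ) : -((s : ℝ) + 1) ≤ Real.log ((1 / 2) ^ (s + 1)) := by
  rw [Real.log_pow, one_div, Real.log_inv]
  have := Real.log_two_lt_d9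
  have hs : (0 : ℝ) ≤ s := Nat.cast_nonneg s
  push_cast
  nlinarith

lemma log_one_sub {r : ℝ} (h0 : 0 ≤ r) (h1 : r ≤ 1 / 2) : -(2 * r) ≤ Real.log (1 - r) := by
  have h : 0 < 1 - r := by linarith
  refine le_trans ?_ (Real.one_sub_inv_le_log_of_pos h)
  have : (1 - r)⁻¹ ≤ 1 + 2 * r := by
    rw [inv_le_iff_one_le_mul₀ h]
    nlinarith
  linarith

lemma cost_step {x : ℝ} (h0 : 0 ≤ x) (s : ℕ) (hs : x ≤ (1 / 2) ^ s) :
    cost (2 * x - x ^ 2) (s - 1) - (x ^ 2 * (2 * Real.log ((1 / 2) ^ (s + 1)))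
      + 2 * (x * (1 - x)) * Real.log (1 - (1 / 2) ^ (s + 1))) ≤ 2 * cost x s := by
  have h1 : x ≤ 1 := hs.trans (pow_le_one₀ (by norm_num) (by norm_num))
  have a := log_half_pow s
  have hr : ((1 : ℝ) / 2) ^ (s + 1) ≤ 1 / 2 := by
    rw [pow_succ]
    have : ((1 : ℝ) / 2) ^ s ≤ 1 := pow_le_one₀ (by norm_num) (by norm_num)
    linarith
  have b := log_one_sub (by positivity) hr
  have hx2 : 0 ≤ x ^ 2 := by positivity
  have hx1 : 0 ≤ x * (1 - x) := mul_nonneg h0 (by linarith)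
  have a' := mul_le_mul_of_nonneg_left a hx2
  have b' := mul_le_mul_of_nonneg_left b hx1
  cases s with
  | zero =>
    simp only [cost] at *
    norm_num at *
    nlinarith
  | succ u =>
    have hc := coef_nonneg u
    simp only [cost, Nat.add_sub_cancel] at *
    set w : ℝ := (1 / 2) ^ u with hw
    have hw0 : 0 ≤ w := by positivity
    have e1 : ((1 : ℝ) / 2) ^ (u + 1) = w / 2 := by rw [pow_succ]; ring
    have e2 : ((1 : ℝ) / 2) ^ (u + 1 + 1) = w / 4 := by rw [pow_succ, pow_succ]; ring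
    rw [e2] at a' b' ⊢
    rw [e1] at hs ⊢
    push_cast at *
    have hu : (0 : ℝ) ≤ u := Nat.cast_nonneg u
    have c1 : x ^ 2 * ((u : ℝ) + 2) ≤ x * (w / 2) * (u + 2) := by
      have : x ^ 2 ≤ x * (w / 2) := by nlinarith
      exact mul_le_mul_of_nonneg_right this (by linarith)
    have c2 : 0 ≤ (4 - ((u : ℝ) + 4) * w) * x ^ 2 := mul_nonneg hc hx2
    have c3 : 0 ≤ x ^ 2 * w := mul_nonneg hx2 hw0
    nlinarith

variable {Γ : Type} [Group Γ] [Fintype Γ] {Y : Type} [Fintype Y] [DecidableEq Y] [MulAction Γ Y]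

lemma gibbs {α : Type} [Fintype α] (μ ν : α → ℝ) (hμ0 : ∀ x, 0 ≤ μ x) (hμ1 : ∑ x, μ x = 1)
    (hν0 : ∀ x, 0 ≤ ν x) (hν1 : ∑ x, ν x ≤ 1) (hp : ∀ x, μ x ≠ 0 → 0 < ν x) :
    0 ≤ ∑ x, μ x * Real.log (μ x / ν x) := by
  have h : ∀ x, μ x - ν x ≤ μ x * Real.log (μ x / ν x) := by
    intro x
    by_cases hx : μ x = 0
    · simp [hx, hν0 x]
    · have a := hp x hx
      have b : 0 < μ x := lt_of_le_of_ne (hμ0 x) (Ne.symm hx)
      have c := Real.one_sub_inv_le_log_of_pos (div_pos b a)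
      have d := mul_le_mul_of_nonneg_left c b.le
      refine le_trans (le_of_eq ?_) d
      field_simp
  have := Finset.sum_le_sum fun x (_ : x ∈ univ) => h x
  rw [Finset.sum_sub_distrib] at this
  linarith

omit [Fintype Y] in
lemma chi_union (U V : Finset Y) (y : Y) :
    chi (U ∪ V) y = chi U y + chi V y - chi U y * chi V y := by
  by_cases a : y ∈ U <;> by_cases b : y ∈ V <;> simp [chi, a, b]

omit [Fintype Y] in
lemma chi_nonneg (U : Finset Y) (y : Y) : 0 ≤ chi U y := by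
  unfold chi; split_ifs <;> norm_num

omit [Fintype Y] in
lemma chi_le_one (U : Finset Y) (y : Y) : chi U y ≤ 1 := by
  unfold chi; split_ifs <;> norm_num

lemma bilin {α : Type} [Fintype α] (μ : α → ℝ) (hμ1 : ∑ x, μ x = 1) (f : α → ℝ) (a b : ℝ) :
    ∑ z : α × α, μ z.1 * μ z.2 * (a * (f z.1 * f z.2) + b * (f z.1 + f z.2))
      = a * (∑ x, μ x * f x) ^ 2 + 2 * b * ∑ x, μ x * f x := by
  have e1 : ∑ z : α × α, μ z.1 * μ z.2 * (f z.1 * f z.2) = (∑ x, μ x * f x) ^ 2 := by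
    rw [sq, Finset.sum_mul_sum, Fintype.sum_prod_type]
    exact Finset.sum_congr rfl fun x _ => Finset.sum_congr rfl fun x' _ => by ring
  have e2 : ∑ z : α × α, μ z.1 * μ z.2 * f z.1 = ∑ x, μ x * f x := by
    rw [Fintype.sum_prod_type]
    refine Finset.sum_congr rfl fun x _ => ?_
    have : ∀ x', μ x * μ x' * f x = (μ x * f x) * μ x' := fun x' => by ring
    simp only [this, ← Finset.mul_sum, hμ1, mul_one]
  have e3 : ∑ z : α × α, μ z.1 * μ z.2 * f z.2 = ∑ x, μ x * f x := by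
    rw [Fintype.sum_prod_type_right]
    refine Finset.sum_congr rfl fun x _ => ?_
    have : ∀ x', μ x' * μ x * f x = (μ x * f x) * μ x' := fun x' => by ring
    simp only [this, ← Finset.mul_sum, hμ1, mul_one]
  rw [← e1, two_mul, add_mul, Finset.mul_sum]
  nth_rewrite 1 [← e2]
  rw [← e3, Finset.mul_sum, Finset.mul_sum, ← Finset.sum_add_distrib, ← Finset.sum_add_distrib]
  exact Finset.sum_congr rfl fun z _ => by ring

theorem doubling (H : Finset Y) (L : ℝ) (hL : 0 ≤ L)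
    (hsp : ∀ D ⊆ H, D.card * L ≤ Real.log (orb Γ D)) (t : ℕ) :
    ∀ (α : Type) [Fintype α] [MulAction Γ α] (U : α → Finset Y) (μ ν : α → ℝ) (s : Y → ℕ),
      (∀ (g : Γ) x, U (g • x) = g • U x) → (∀ (g : Γ) y, s (g • y) = s y) →
      (∀ x, 0 ≤ ν x) → (∀ (g : Γ) x, ν (g • x) = ν x) → ∑ x, ν x ≤ 1 →
      (∀ x, 0 ≤ μ x) → ∑ x, μ x = 1 → (∀ x, μ x ≠ 0 → 0 < ν x ∧ U x ⊆ H) →
      (∀ y ∈ H, ∑ x, μ x * chi (U x) y ≤ (1 / 2) ^ s y) →
      ∑ y ∈ H, ((∑ x, μ x * chi (U x) y - (1 / 2) ^ t) * L - cost (∑ x, μ x * chi (U x) y) (s y))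
        ≤ ∑ x, μ x * Real.log (μ x / ν x) := by
  induction t with
  | zero =>
    intro α _ _ U μ ν s _ _ hν0 _ hν1 hμ0 hμ1 hp hs
    refine le_trans (Finset.sum_nonpos fun y hy => ?_)
      (gibbs μ ν hμ0 hμ1 hν0 hν1 fun x hx => (hp x hx).1)
    have a : 0 ≤ ∑ x, μ x * chi (U x) y :=
      Finset.sum_nonneg fun x _ => mul_nonneg (hμ0 x) (chi_nonneg _ _)
    have b : ∑ x, μ x * chi (U x) y ≤ 1 :=
      (hs y hy).trans (pow_le_one₀ (by norm_num) (by norm_num))
    have c := cost_nonneg a (s y)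
    rw [pow_zero]
    nlinarith
  | succ t ih =>
    intro α _ _ U μ ν s hU hsi hν0 hνi hν1 hμ0 hμ1 hp hs
    set r : Y → ℝ := fun y => (1 / 2) ^ (s y + 1) with hr
    have r0 : ∀ y, 0 < r y := fun y => by simp only [hr]; positivity
    have r1 : ∀ y, r y < 1 := fun y => pow_lt_one₀ (by norm_num) (by norm_num) (by omega)
    have ri : ∀ (g : Γ) y, r (g • y) = r y := fun g y => by simp only [hr, hsi]
    set π : Y → ℝ := fun y => ∑ x, μ x * chi (U x) y with hπ
    have π0 : ∀ y, 0 ≤ π y := fun y =>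
      Finset.sum_nonneg fun x _ => mul_nonneg (hμ0 x) (chi_nonneg _ _)
    have hπ2 : ∀ y, ∑ z : α × α, μ z.1 * μ z.2 * chi (U z.1 ∪ U z.2) y = 2 * π y - π y ^ 2 := by
      intro y
      have := bilin μ hμ1 (fun x => chi (U x) y) (-1) 1
      simp only [chi_union]
      rw [show 2 * π y - π y ^ 2 = -1 * π y ^ 2 + 2 * 1 * π y by ring, ← this]
      exact Finset.sum_congr rfl fun z _ => by ring
    have key := ih (α × α) (fun z => U z.1 ∪ U z.2) (fun z => μ z.1 * μ z.2)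
      (fun z => ν z.1 * ν z.2 * ker Γ r (U z.1) (U z.2)) (fun y => s y - 1)
      (fun g z => by simp only [Prod.smul_fst, Prod.smul_snd, hU, Finset.smul_finset_union])
      (fun g y => by simp only [hsi])
      (fun z => mul_nonneg (mul_nonneg (hν0 _) (hν0 _)) (ker_nonneg r0 r1 _ _))
      (fun g z => by simp only [Prod.smul_fst, Prod.smul_snd, hU, hνi, ker_smul g (ri g)])
      (by rw [Fintype.sum_prod_type]; exact ker_sum_le r0 r1 ri U hU ν hν0 hνi hν1)
      (fun z => mul_nonneg (hμ0 _) (hμ0 _))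
      (by rw [Fintype.sum_prod_type]; simp only [← Finset.mul_sum, hμ1, mul_one])
      (fun z hz => by
        have a := hp z.1 (left_ne_zero_of_mul hz)
        have b := hp z.2 (right_ne_zero_of_mul hz)
        exact ⟨mul_pos (mul_pos a.1 b.1) (log_ker r0 r1 H L hsp _ _ a.2 b.2).1,
          Finset.union_subset a.2 b.2⟩)
      (fun y hy => by
        rw [hπ2]
        have a : π y ≤ (1 / 2) ^ s y := hs y hy
        have b := π0 y
        cases hsy : s y with
        | zero => simp only [Nat.zero_sub, pow_zero]; nlinarith [sq_nonneg (π y - 1)]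
        | succ u =>
          rw [hsy, pow_succ] at a
          simp only [Nat.add_sub_cancel]
          nlinarith [sq_nonneg (π y)])
    simp only [hπ2] at key
    have h2 : ∑ z : α × α, μ z.1 * μ z.2 *
        Real.log (μ z.1 * μ z.2 / (ν z.1 * ν z.2 * ker Γ r (U z.1) (U z.2)))
        ≤ ∑ z : α × α, μ z.1 * μ z.2 * (0 * (Real.log (μ z.1 / ν z.1) * Real.log (μ z.2 / ν z.2))
          + 1 * (Real.log (μ z.1 / ν z.1) + Real.log (μ z.2 / ν z.2)))
          - ∑ z : α × α, μ z.1 * μ z.2 * ∑ y ∈ H,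
            ((L + 2 * Real.log (r y) - 2 * Real.log (1 - r y)) * (chi (U z.1) y * chi (U z.2) y)
              + Real.log (1 - r y) * (chi (U z.1) y + chi (U z.2) y)) := by
      rw [← Finset.sum_sub_distrib]
      refine Finset.sum_le_sum fun z _ => ?_
      by_cases hz : μ z.1 * μ z.2 = 0
      · simp [hz]
      · have a := hp z.1 (left_ne_zero_of_mul hz)
        have b := hp z.2 (right_ne_zero_of_mul hz)
        obtain ⟨k0, k1⟩ := log_ker r0 r1 H L hsp _ _ a.2 b.2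
        rw [← mul_sub]
        refine mul_le_mul_of_nonneg_left ?_ (mul_nonneg (hμ0 _) (hμ0 _))
        have e : μ z.1 * μ z.2 / (ν z.1 * ν z.2 * ker Γ r (U z.1) (U z.2))
            = (μ z.1 / ν z.1) * (μ z.2 / ν z.2) / ker Γ r (U z.1) (U z.2) := by
          have := a.1.ne'
          have := b.1.ne'
          field_simp
        have m1 : μ z.1 / ν z.1 ≠ 0 := div_ne_zero (left_ne_zero_of_mul hz) a.1.ne'
        have m2 : μ z.2 / ν z.2 ≠ 0 := div_ne_zero (right_ne_zero_of_mul hz) b.1.ne'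
        rw [e, Real.log_div (mul_ne_zero m1 m2) k0.ne', Real.log_mul m1 m2]
        refine sub_le_sub (le_of_eq (by ring)) (le_trans (le_of_eq ?_) k1)
        exact Finset.sum_congr rfl fun y _ => by ring
    rw [bilin μ hμ1 (fun x => Real.log (μ x / ν x)) 0 1] at h2
    have h3 : ∑ z : α × α, μ z.1 * μ z.2 * ∑ y ∈ H,
        ((L + 2 * Real.log (r y) - 2 * Real.log (1 - r y)) * (chi (U z.1) y * chi (U z.2) y)
          + Real.log (1 - r y) * (chi (U z.1) y + chi (U z.2) y))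
        = ∑ y ∈ H, ((L + 2 * Real.log (r y) - 2 * Real.log (1 - r y)) * π y ^ 2
          + 2 * Real.log (1 - r y) * π y) := by
      simp only [Finset.mul_sum]
      rw [Finset.sum_comm]
      exact Finset.sum_congr rfl fun y _ => bilin μ hμ1 (fun x => chi (U x) y) _ _
    rw [h3] at h2
    have h4 : 2 * ∑ y ∈ H, ((π y - (1 / 2) ^ (t + 1)) * L - cost (π y) (s y))
        ≤ ∑ y ∈ H, ((2 * π y - π y ^ 2 - (1 / 2) ^ t) * L - cost (2 * π y - π y ^ 2) (s y - 1))
          + ∑ y ∈ H, ((L + 2 * Real.log (r y) - 2 * Real.log (1 - r y)) * π y ^ 2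
          + 2 * Real.log (1 - r y) * π y) := by
      rw [Finset.mul_sum, ← Finset.sum_add_distrib]
      refine Finset.sum_le_sum fun y hy => ?_
      have := cost_step (π0 y) (s y) (hs y hy)
      simp only [hr]
      rw [pow_succ (1 / 2 : ℝ) t]
      nlinarith
    change ∑ y ∈ H, ((π y - (1 / 2) ^ (t + 1)) * L - cost (π y) (s y)) ≤ _
    linarith

end Vale.Agent.P064
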