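import Vale.Agent.P064.Graph

open Finset Pointwise

namespace Vale.Agent.P064

open Vale.Agent.P230

variable {n : ℕ}

lemma pc_le {V : Type} (H : SimpleGraph V) {p : ℝ} (h0 : 0 ≤ p) (h1 : p ≤ 1)
    (h : 1 / 2 ≤ gnpExp n p (fun G => if 0 < G.copyCount H then 1 else 0)) : pc n H ≤ p :=
  csInf_le ⟨0, fun _ hx => hx.1⟩ ⟨h0, h1, h⟩

lemma pEfrac_le {V : Type} [Fintype V] (H : SimpleGraph V) {p : ℝ} (h0 : 0 ≤ p) (h1 : p ≤ 1)
    (h : ∀ F : H.Subgraph,
      (H.copyCount F.coe : ℝ) / 2 ≤ gnpExp n p (fun G => (G.copyCount F.coe : ℝ))) :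
    pEfrac n H ≤ p :=
  csInf_le ⟨0, fun _ hx => hx.1⟩ ⟨h0, h1, h⟩

lemma Ex_one {X : Type} [Fintype X] [DecidableEq X] (f : Finset X → ℝ) : Ex 1 f = f univ := by
  unfold Ex
  rw [Finset.sum_eq_single univ]
  · simp [wt]
  · intro w _ hw
    have : w.card < Fintype.card X := Finset.card_lt_card (Finset.ssubset_univ_iff.2 hw)
    have : Fintype.card X - w.card ≠ 0 := by omega
    simp [wt, this]
  · simp

lemma contain_ge {V : Type} [Fintype V] (H : SimpleGraph V) (ι : V → Fin n)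
    (hι : Function.Injective ι) {p : ℝ} (h0 : 0 ≤ p) (h1 : p ≤ 1) :
    1 - Ex p (miss univ (fun g : Equiv.Perm (Fin n) => g⁻¹ • (pr H ι).2))
      ≤ gnpExp n p (fun G => if 0 < G.copyCount H then 1 else 0) := by
  have : 1 - Ex p (miss univ (fun g : Equiv.Perm (Fin n) => g⁻¹ • (pr H ι).2))
      = Ex p (fun w => 1 - miss univ (fun g : Equiv.Perm (Fin n) => g⁻¹ • (pr H ι).2) w) := by
    rw [Ex_sub, Ex_const]
  rw [this, ← gnpExp_eq]
  refine gnpExp_mono h0 h1 fun G => ?_
  unfold miss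
  split_ifs with a b b
  · norm_num
  · exfalso
    apply b
    obtain ⟨g, _, hg⟩ := a
    rw [copyCount_eq_cnt G H ι hι]
    exact Finset.card_pos.2 ⟨g⁻¹ • pr H ι, Finset.mem_filter.2
      ⟨Finset.mem_image_of_mem _ (Finset.mem_univ _), hg⟩⟩
  · norm_num
  · norm_num

lemma pc_le_one {V : Type} [Fintype V] (H : SimpleGraph V) (ι : V → Fin n)
    (hι : Function.Injective ι) : pc n H ≤ 1 := by
  refine pc_le H zero_le_one le_rfl (le_trans ?_ (contain_ge H ι hι zero_le_one le_rfl))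
  rw [Ex_one]
  unfold miss
  rw [if_pos ⟨1, Finset.mem_univ _, Finset.subset_univ _⟩]
  norm_num

lemma frac_of_spread {V : Type} [Fintype V] (H : SimpleGraph V) (ι : V → Fin n)
    (hι : Function.Injective ι) {p : ℝ} (h0 : 0 ≤ p) (h1 : p ≤ 1)
    (h : ∀ D : Finset (Edge n), D.Nonempty →
      ((univ.filter (fun g : Equiv.Perm (Fin n) => g • D ⊆ (pr H ι).2)).card : ℝ)
        ≤ Fintype.card (Equiv.Perm (Fin n)) * p ^ D.card) : pEfrac n H ≤ p := by
  refine pEfrac_le H h0 h1 fun F => ?_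
  let φ : F.verts → Fin n := fun a => ι a.1
  have hφ : Function.Injective φ := hι.comp Subtype.val_injective
  rw [gnpExp_copyCount F.coe φ hφ]
  have a : (H.copyCount F.coe : ℝ) ≤ cnt F.coe φ (pr H ι).2 := by
    exact_mod_cast copyCount_le_cnt H F.coe ι hι φ hφ
  have b : (cnt F.coe φ (pr H ι).2 : ℝ) ≤ osz F.coe φ * p ^ (pr F.coe φ).2.card := by
    rcases (pr F.coe φ).2.eq_empty_or_nonempty with he | hne
    · rw [he]
      simpa using cnt_le_osz F.coe φ (pr H ι).2
    · have c := h _ hne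
      have d : (cnt F.coe φ (pr H ι).2 : ℝ) * Fintype.card (Equiv.Perm (Fin n))
          = osz F.coe φ * (univ.filter
            (fun g : Equiv.Perm (Fin n) => g • (pr F.coe φ).2 ⊆ (pr H ι).2)).card := by
        exact_mod_cast cnt_mul F.coe φ (pr H ι).2
      have e : (0 : ℝ) < Fintype.card (Equiv.Perm (Fin n)) := by exact_mod_cast Fintype.card_pos
      have f := mul_le_mul_of_nonneg_left c (Nat.cast_nonneg (α := ℝ) (osz F.coe φ))
      rw [← d] at f
      refine le_of_mul_le_mul_right (f.trans (le_of_eq ?_)) e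
      ring
  have c : (0 : ℝ) ≤ H.copyCount F.coe := Nat.cast_nonneg _
  linarith

lemma pEfrac_le_one {V : Type} [Fintype V] (H : SimpleGraph V) (ι : V → Fin n)
    (hι : Function.Injective ι) : pEfrac n H ≤ 1 := by
  refine frac_of_spread H ι hι zero_le_one le_rfl fun D _ => ?_
  rw [one_pow, mul_one]
  exact_mod_cast Finset.card_le_univ _

lemma bounds_of_mem (hn : 2 ≤ n) {V : Type} [Fintype V] (H : SimpleGraph V) (ι : V → Fin n)
    (hι : Function.Injective ι) (hH : H.edgeSet.Nonempty) (q : ℝ) (hq : 0 ≤ q)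
    (h : ∀ F : H.Subgraph, 1 / 2 ≤ gnpExp n q (fun G => (G.copyCount F.coe : ℝ))) :
    pc n H ≤ 4608 * Real.exp 11 * q * Real.log n ^ 2
      ∧ pEfrac n H ≤ 4608 * Real.exp 11 * q * Real.log n := by
  have hsp := sparse_of_exp H ι hι q hq h
  change ∀ D ⊆ (pr H ι).2, _ at hsp
  set E := (pr H ι).2 with hE
  have hne : E.Nonempty := by
    obtain ⟨x, hx⟩ := hH
    exact ⟨⟨Sym2.map ι x, fun h => H.not_isDiag_of_mem_edgeSet hx ((Sym2.isDiag_map hι).1 h)⟩,
      mem_toE.2 ⟨x, hx, rfl⟩⟩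
  have hq0 : 0 < q := by
    obtain ⟨e, he⟩ := hne
    have := hsp {e} (Finset.singleton_subset_iff.2 he)
    rcases hq.eq_or_lt with h | h
    · rw [← h] at this
      norm_num at this
    · exact h
  have l2 := Real.log_two_gt_d9
  have hn2 : (2 : ℝ) ≤ n := by exact_mod_cast hn
  have hl : Real.log 2 ≤ Real.log n := Real.log_le_log (by norm_num) hn2
  have he : (1 : ℝ) ≤ Real.exp 11 := Real.one_le_exp (by norm_num)
  set l := Real.log n with hl'
  have hl0 : 2 / 3 ≤ l := by linarith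
  have c1 := pc_le_one H ι hι
  have c2 := pEfrac_le_one H ι hι
  by_cases hq1 : 2 * q ≤ 1
  swap
  · have a : 1 / 2 ≤ Real.exp 11 * q := by nlinarith
    constructor
    · have : 4 / 9 ≤ l ^ 2 := by nlinarith
      nlinarith
    · nlinarith
  set k := Nat.log 2 E.card + 1 with hk
  have hk1 : E.card < 2 ^ k := Nat.lt_pow_succ_log_self (by norm_num) _
  have hk2 : ((k : ℝ) + 1) ≤ 6 * l := by
    have a : 2 ^ Nat.log 2 E.card ≤ E.card := Nat.pow_log_le_self 2 hne.card_pos.ne'
    have b : E.card ≤ n ^ 2 := by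
      refine (Finset.card_le_univ E).trans ?_
      rw [card_edge]
      exact Nat.choose_le_pow n 2
    have c : (2 : ℝ) ^ Nat.log 2 E.card ≤ (n : ℝ) ^ 2 := by exact_mod_cast a.trans b
    have d := Real.log_le_log (by positivity) c
    rw [Real.log_pow, Real.log_pow] at d
    rw [hk]
    push_cast at d ⊢
    have : (0 : ℝ) ≤ Nat.log 2 E.card := Nat.cast_nonneg _
    nlinarith
  set κ := Real.exp 11 * (2 * q) * ((k : ℝ) + 1) with hκ
  have κ0 : 0 < κ := by positivity
  have hb := fun D hD => spread_bound (Γ := Equiv.Perm (Fin n)) E (2 * q) (by positivity) hq1 hsp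
    k hk1.le D hD
  have κ1 : κ ≤ 12 * (Real.exp 11 * q * l) := by
    have : 0 ≤ Real.exp 11 * (2 * q) := by positivity
    have := mul_le_mul_of_nonneg_left hk2 this
    linarith
  have m0 : 0 ≤ Real.exp 11 * q * l := by positivity
  have k1 : (1 : ℝ) ≤ k := by rw [hk]; push_cast; linarith [Nat.cast_nonneg (α := ℝ) (Nat.log 2 E.card)]
  constructor
  · have P1 : k * (64 * κ) ≤ 4608 * Real.exp 11 * q * l ^ 2 := by
      have := mul_le_mul (by linarith : (k : ℝ) ≤ 6 * l) κ1 κ0.le (by positivity)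
      nlinarith
    by_cases hP : k * (64 * κ) < 1
    swap
    · linarith
    have P0 : 0 ≤ k * (64 * κ) := by positivity
    refine le_trans (pc_le H P0 hP.le (le_trans ?_ (contain_ge H ι hι P0 hP.le))) P1
    have N0 : (0 : ℝ) < Fintype.card (Equiv.Perm (Fin n)) := by exact_mod_cast Fintype.card_pos
    have := spread_lemma κ (Fintype.card (Equiv.Perm (Fin n))) κ0 (by nlinarith) N0.le k
      univ (fun g : Equiv.Perm (Fin n) => g⁻¹ • E) _ le_rfl hP.le
      (fun g _ => by rw [Finset.card_smul_finset]; exact hk1)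
      (fun J hJ => by
        refine le_trans (le_of_eq ?_) (hb J hJ)
        congr 2
        ext g
        simp only [Finset.mem_filter, Finset.smul_finset_subset_iff])
    rw [Finset.card_univ] at this
    have h2 := le_of_mul_le_mul_left this N0
    have : (0 : ℝ) ≤ (1 / 2) ^ (k + 1) := by positivity
    linarith
  · by_cases hP : κ ≤ 1
    · have := frac_of_spread H ι hι κ0.le hP hb
      nlinarith
    · nlinarith

theorem main : ∃ C : ℝ, 0 < C ∧ ∀ (n : ℕ), 2 ≤ n → ∀ (V : Type) [Fintype V] (H : SimpleGraph V),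
    Fintype.card V ≤ n → H.edgeSet.Nonempty →
      pc n H ≤ C * pE n H * Real.log n ^ 2 ∧ pEfrac n H ≤ C * pE n H * Real.log n := by
  refine ⟨4608 * Real.exp 11, by positivity, fun n hn V _ H hV hH => ?_⟩
  obtain ⟨ι⟩ : Nonempty (V ↪ Fin n) :=
    Function.Embedding.nonempty_of_card_le (by simpa using hV)
  have hne : ({p : ℝ | 0 ≤ p ∧ p ≤ 1 ∧
      ∀ F : H.Subgraph, 1 / 2 ≤ gnpExp n p (fun G => (G.copyCount F.coe : ℝ))}).Nonempty := by
    refine ⟨1, zero_le_one, le_rfl, fun F => ?_⟩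
    rw [gnpExp_copyCount F.coe (fun a => ι a.1) (ι.injective.comp Subtype.val_injective)]
    have : (1 : ℝ) ≤ osz F.coe (fun a => ι a.1) := by exact_mod_cast osz_pos _ _
    rw [one_pow]
    linarith
  have hn2 : (1 : ℝ) < n := by exact_mod_cast hn
  have hl : 0 < Real.log n := Real.log_pos hn2
  have key : ∀ a K : ℝ, 0 < K → (∀ q, 0 ≤ q → (∀ F : H.Subgraph,
      1 / 2 ≤ gnpExp n q (fun G => (G.copyCount F.coe : ℝ))) → a ≤ q * K) → a ≤ pE n H * K := by
    intro a K hK h
    rw [← div_le_iff₀ hK]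
    exact le_csInf hne fun q hq => (div_le_iff₀ hK).2 (h q hq.1 hq.2.2)
  constructor
  · have := key (pc n H) (4608 * Real.exp 11 * Real.log n ^ 2) (by positivity) fun q a b => by
      have := (bounds_of_mem hn H ι ι.injective hH q a b).1
      linarith
    linarith
  · have := key (pEfrac n H) (4608 * Real.exp 11 * Real.log n) (by positivity) fun q a b => by
      have := (bounds_of_mem hn H ι ι.injective hH q a b).2
      linarith
    linarith

end Vale.Agent.P064
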