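import Vale.Agent.P064.Sharp
import Vale.Agent.P064.Main

open Finset Pointwise

namespace Vale.Agent.P064

open Vale.Agent.P230

section

variable {Γ : Type} [Group Γ] [Fintype Γ] {X : Type} [Fintype X] [DecidableEq X] [MulAction Γ X]

lemma extremal_bound (H : Finset X) (L M : ℝ) (hL : 0 ≤ L) (hM0 : 0 ≤ M)
    (hsp : ∀ D ⊆ H, D.card * L ≤ Real.log (orb Γ D))
    (hM : ∀ D : Finset X, ((univ.filter (fun g : Γ => g • D ⊆ H)).card : ℝ)
      ≤ Fintype.card Γ * Real.exp (-(D.card * (L - M))))
    (F : Finset X) (hB : 0 < (univ.filter (fun g : Γ => g • F ⊆ H)).card) :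
    F.card * (L - 4 / 5 * M - 18) - 4
      ≤ Real.log (Fintype.card Γ) - Real.log (univ.filter (fun g : Γ => g • F ⊆ H)).card := by
  classical
  set B := univ.filter (fun g : Γ => g • F ⊆ H) with hBd
  have hBr : (0 : ℝ) < B.card := by exact_mod_cast hB
  have hΓ := cardG_pos (Γ := Γ)
  obtain ⟨t, ht⟩ : ∃ t : ℕ, (1 / 2 : ℝ) ^ t * (Fintype.card X * L) ≤ 1 := by
    obtain ⟨t, ht⟩ := pow_unbounded_of_one_lt ((Fintype.card X : ℝ) * L) (one_lt_two)
    refine ⟨t, ?_⟩
    rw [one_div, inv_pow, inv_mul_le_iff₀ (by positivity)]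
    linarith
  let μ : Γ → ℝ := fun g => if g ∈ B then (B.card : ℝ)⁻¹ else 0
  have hμ : ∀ f : Γ → ℝ, ∑ g, μ g * f g = (∑ g ∈ B, f g) / B.card := by
    intro f
    simp only [μ, ite_mul, zero_mul]
    rw [Finset.sum_ite_mem, Finset.univ_inter, Finset.sum_div]
    exact Finset.sum_congr rfl fun a _ => by field_simp
  have μ0 : ∀ g, 0 ≤ μ g := fun g => by
    simp only [μ]
    split_ifs <;> positivity
  have μ1 : ∑ g, μ g = 1 := by
    have := hμ fun _ => 1
    simp only [mul_one, Finset.sum_const, nsmul_eq_mul] at this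
    rw [this, div_self hBr.ne']
  have key := main_ind (Γ := Γ) H L M hL hM0 hsp hM t Γ (fun g => g • F)
    (fun _ => (Fintype.card Γ : ℝ)⁻¹) μ (fun g x => by rw [smul_eq_mul, mul_smul])
    (fun _ => by positivity) (fun _ _ => rfl)
    (by simp only [Finset.sum_const, Finset.card_univ, nsmul_eq_mul]; rw [mul_inv_cancel₀ hΓ.ne'])
    ⟨μ0, μ1, fun g hg => ⟨by positivity, by
      have : g ∈ B := by
        by_contra h
        simp [μ, h] at hg
      exact (Finset.mem_filter.1 this).2⟩⟩
  have e1 : kl μ (fun _ => (Fintype.card Γ : ℝ)⁻¹)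
      = Real.log (Fintype.card Γ) - Real.log B.card := by
    unfold kl
    rw [hμ, Finset.sum_congr rfl (g := fun _ => Real.log (Fintype.card Γ) - Real.log B.card)]
    · simp only [Finset.sum_const, nsmul_eq_mul]
      field_simp
    · intro a ha
      simp only [μ, ha, if_true, Real.log_inv]
      ring
  have e2 : ∑ y, mrg (fun g : Γ => g • F) μ y = F.card := by
    unfold mrg
    rw [Finset.sum_comm]
    simp only [← Finset.mul_sum, ← card_eq_chi, Finset.card_smul_finset, ← Finset.sum_mul, μ1,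
      one_mul]
  have e3 : 0 ≤ ∑ y, mrg (fun g : Γ => g • F) μ y * Real.sqrt (mrg (fun g : Γ => g • F) μ y) :=
    Finset.sum_nonneg fun y _ => mul_nonneg (mrg_nonneg _ μ0 y) (Real.sqrt_nonneg _)
  unfold Phi at key
  rw [e1, e2] at key
  linarith

theorem spread_sharp (H : Finset X) (q : ℝ) (hq0 : 0 < q) (hq1 : q ≤ 1)
    (hsp : ∀ D ⊆ H, 1 ≤ (orb Γ D : ℝ) * q ^ D.card) (F : Finset X) (hF : F.Nonempty) :
    ((univ.filter (fun g : Γ => g • F ⊆ H)).card : ℝ)
      ≤ Fintype.card Γ * (Real.exp 110 * q) ^ F.card := by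
  classical
  have hΓ := cardG_pos (Γ := Γ)
  set L := -Real.log q with hL
  have hL0 : 0 ≤ L := by have := Real.log_nonpos hq0.le hq1; linarith
  have hsp' : ∀ D ⊆ H, D.card * L ≤ Real.log (orb Γ D) := by
    intro D hD
    have o1 : (0 : ℝ) < orb Γ D := by exact_mod_cast orb_pos _
    have e := Real.log_nonneg (hsp D hD)
    rw [Real.log_mul o1.ne' (by positivity), Real.log_pow] at e
    rw [hL]
    linarith
  let b : Finset X → ℕ := fun D => (univ.filter (fun g : Γ => g • D ⊆ H)).card
  let m : Finset X → ℝ := fun D => L + (Real.log (b D) - Real.log (Fintype.card Γ)) / D.card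
  have conv : ∀ (D : Finset X) (M : ℝ), D.Nonempty → 0 < b D → m D ≤ M →
      (b D : ℝ) ≤ Fintype.card Γ * Real.exp (-(D.card * (L - M))) := by
    intro D M hD hb h
    have c : (0 : ℝ) < D.card := by exact_mod_cast hD.card_pos
    have hb' : (0 : ℝ) < b D := by exact_mod_cast hb
    have a : (Real.log (b D) - Real.log (Fintype.card Γ)) / D.card ≤ M - L := by
      simp only [m] at h
      linarith
    rw [div_le_iff₀ c] at a
    rw [← Real.exp_log hb', ← Real.exp_log hΓ, ← Real.exp_add, Real.exp_le_exp]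
    linarith
  rcases Nat.eq_zero_or_pos (b F) with hb | hb
  · change (b F : ℝ) ≤ _
    rw [hb]
    push_cast
    positivity
  obtain ⟨D₀, hD₀, hmax⟩ := Finset.exists_max_image
    (univ.filter (fun D : Finset X => D.Nonempty ∧ 0 < b D)) m ⟨F, by simp [hF, hb]⟩
  obtain ⟨n0, b0⟩ := (Finset.mem_filter.1 hD₀).2
  have hM : m D₀ ≤ 110 := by
    by_contra hc
    have hc' : 110 < m D₀ := lt_of_not_ge hc
    have c : (1 : ℝ) ≤ D₀.card := by exact_mod_cast n0.card_pos
    have key := extremal_bound (Γ := Γ) H L (m D₀) hL0 (by linarith) hsp' (fun D => by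
      rcases D.eq_empty_or_nonempty with rfl | hD
      · simp
      rcases Nat.eq_zero_or_pos (b D) with h | h
      · change (b D : ℝ) ≤ _
        rw [h]
        push_cast
        positivity
      · exact conv D _ hD h (hmax D (by simp [hD, h]))) D₀ b0
    have e : Real.log (b D₀) - Real.log (Fintype.card Γ) = (m D₀ - L) * D₀.card := by
      simp only [m]
      field_simp
      ring
    change _ ≤ _ - Real.log (b D₀) at key
    nlinarith
  refine (conv F 110 hF hb ((hmax F (by simp [hF, hb])).trans hM)).trans (le_of_eq ?_)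
  congr 1
  rw [← Real.exp_log hq0, ← Real.exp_add, ← Real.exp_nat_mul, hL]
  congr 1
  ring

end

variable {n : ℕ}

lemma sharp_of_mem (hn : 2 ≤ n) {V : Type} [Fintype V] (H : SimpleGraph V) (ι : V → Fin n)
    (hι : Function.Injective ι) (hH : H.edgeSet.Nonempty) (q : ℝ) (hq : 0 ≤ q)
    (h : ∀ F : H.Subgraph, 1 / 2 ≤ gnpExp n q (fun G => (G.copyCount F.coe : ℝ))) :
    pc n H ≤ 768 * Real.exp 110 * q * Real.log n ∧ pEfrac n H ≤ 768 * Real.exp 110 * q := by
  have hsp := sparse_of_exp H ι hι q hq h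
  change ∀ D ⊆ (pr H ι).2, _ at hsp
  set E := (pr H ι).2 with hE
  have hne : E.Nonempty := by
    obtain ⟨x, hx⟩ := hH
    exact ⟨⟨Sym2.map ι x, fun h => H.not_isDiag_of_mem_edgeSet hx ((Sym2.isDiag_map hι).1 h)⟩,
      mem_toE.2 ⟨x, hx, rfl⟩⟩
  have hq0 : 0 < q := by
    obtain ⟨e, he⟩ := hne
    have := hsp {e} (Finset.singleton_subset_iff.2 he)
    rcases hq.eq_or_lt with h | h
    · rw [← h] at this
      norm_num at this
    · exact h
  have l2 := Real.log_two_gt_d9
  have hn2 : (2 : ℝ) ≤ n := by exact_mod_cast hn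
  have hl : Real.log 2 ≤ Real.log n := Real.log_le_log (by norm_num) hn2
  have he : (1 : ℝ) ≤ Real.exp 110 := Real.one_le_exp (by norm_num)
  set l := Real.log n with hl'
  have hl0 : 2 / 3 ≤ l := by linarith
  have c1 := pc_le_one H ι hι
  have c2 := pEfrac_le_one H ι hι
  by_cases hq1 : 2 * q ≤ 1
  swap
  · have a : 1 / 2 ≤ Real.exp 110 * q := by nlinarith
    constructor
    · nlinarith
    · nlinarith
  set k := Nat.log 2 E.card + 1 with hk
  have hk1 : E.card < 2 ^ k := Nat.lt_pow_succ_log_self (by norm_num) _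
  have hk2 : ((k : ℝ) + 1) ≤ 6 * l := by
    have a : 2 ^ Nat.log 2 E.card ≤ E.card := Nat.pow_log_le_self 2 hne.card_pos.ne'
    have b : E.card ≤ n ^ 2 := by
      refine (Finset.card_le_univ E).trans ?_
      rw [card_edge]
      exact Nat.choose_le_pow n 2
    have c : (2 : ℝ) ^ Nat.log 2 E.card ≤ (n : ℝ) ^ 2 := by exact_mod_cast a.trans b
    have d := Real.log_le_log (by positivity) c
    rw [Real.log_pow, Real.log_pow] at d
    rw [hk]
    push_cast at d ⊢
    have : (0 : ℝ) ≤ Nat.log 2 E.card := Nat.cast_nonneg _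
    nlinarith
  set κ := Real.exp 110 * (2 * q) with hκ
  have κ0 : 0 < κ := by positivity
  have hb := fun D hD => spread_sharp (Γ := Equiv.Perm (Fin n)) E (2 * q) (by positivity) hq1 hsp
    D hD
  have k1 : (1 : ℝ) ≤ k := by
    rw [hk]; push_cast; linarith [Nat.cast_nonneg (α := ℝ) (Nat.log 2 E.card)]
  constructor
  · have P1 : k * (64 * κ) ≤ 768 * Real.exp 110 * q * l := by
      have := mul_le_mul_of_nonneg_right (by linarith : (k : ℝ) ≤ 6 * l) κ0.le
      nlinarith
    by_cases hP : k * (64 * κ) < 1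
    swap
    · linarith
    have P0 : 0 ≤ k * (64 * κ) := by positivity
    refine le_trans (pc_le H P0 hP.le (le_trans ?_ (contain_ge H ι hι P0 hP.le))) P1
    have N0 : (0 : ℝ) < Fintype.card (Equiv.Perm (Fin n)) := by exact_mod_cast Fintype.card_pos
    have := spread_lemma κ (Fintype.card (Equiv.Perm (Fin n))) κ0 (by nlinarith) N0.le k
      univ (fun g : Equiv.Perm (Fin n) => g⁻¹ • E) _ le_rfl hP.le
      (fun g _ => by rw [Finset.card_smul_finset]; exact hk1)
      (fun J hJ => by
        refine le_trans (le_of_eq ?_) (hb J hJ)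
        congr 2
        ext g
        simp only [Finset.mem_filter, Finset.smul_finset_subset_iff])
    rw [Finset.card_univ] at this
    have h2 := le_of_mul_le_mul_left this N0
    have : (0 : ℝ) ≤ (1 / 2) ^ (k + 1) := by positivity
    linarith
  · by_cases hP : κ ≤ 1
    · have := frac_of_spread H ι hι κ0.le hP hb
      nlinarith
    · nlinarith

theorem main_full : ∃ C : ℝ, 0 < C ∧
    ∀ (n : ℕ), 2 ≤ n → ∀ (V : Type) [Fintype V] (H : SimpleGraph V),
      Fintype.card V ≤ n → H.edgeSet.Nonempty →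
        pc n H ≤ C * pE n H * Real.log n ∧ pEfrac n H ≤ C * pE n H := by
  refine ⟨768 * Real.exp 110, by positivity, fun n hn V _ H hV hH => ?_⟩
  obtain ⟨ι⟩ : Nonempty (V ↪ Fin n) :=
    Function.Embedding.nonempty_of_card_le (by simpa using hV)
  have hne : ({p : ℝ | 0 ≤ p ∧ p ≤ 1 ∧
      ∀ F : H.Subgraph, 1 / 2 ≤ gnpExp n p (fun G => (G.copyCount F.coe : ℝ))}).Nonempty := by
    refine ⟨1, zero_le_one, le_rfl, fun F => ?_⟩
    rw [gnpExp_copyCount F.coe (fun a => ι a.1) (ι.injective.comp Subtype.val_injective)]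
    have : (1 : ℝ) ≤ osz F.coe (fun a => ι a.1) := by exact_mod_cast osz_pos _ _
    rw [one_pow]
    linarith
  have hn2 : (1 : ℝ) < n := by exact_mod_cast hn
  have hl : 0 < Real.log n := Real.log_pos hn2
  have key : ∀ a K : ℝ, 0 < K → (∀ q, 0 ≤ q → (∀ F : H.Subgraph,
      1 / 2 ≤ gnpExp n q (fun G => (G.copyCount F.coe : ℝ))) → a ≤ q * K) → a ≤ pE n H * K := by
    intro a K hK h
    rw [← div_le_iff₀ hK]
    exact le_csInf hne fun q hq => (div_le_iff₀ hK).2 (h q hq.1 hq.2.2)
  constructor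
  · have := key (pc n H) (768 * Real.exp 110 * Real.log n) (by positivity) fun q a b => by
      have := (sharp_of_mem hn H ι ι.injective hH q a b).1
      linarith
    linarith
  · have := key (pEfrac n H) (768 * Real.exp 110) (by positivity) fun q a b => by
      have := (sharp_of_mem hn H ι ι.injective hH q a b).2
      linarith
    linarith

end Vale.Agent.P064
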