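import Vale.Agent.P064.Entropy

open Finset Pointwise

namespace Vale.Agent.P064

/-- A type with the trivial group action. -/
def Triv (β : Type) : Type := β

instance {β : Type} [Fintype β] : Fintype (Triv β) := inferInstanceAs (Fintype β)
instance {β : Type} [DecidableEq β] : DecidableEq (Triv β) := inferInstanceAs (DecidableEq β)
instance {Γ β : Type} [Group Γ] : MulAction Γ (Triv β) where
  smul _ x := x
  one_smul _ := rfl
  mul_smul _ _ _ := rfl

lemma triv_smul {Γ β : Type} [Group Γ] (g : Γ) (x : Triv β) : g • x = x := rfl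

lemma exists_label (J : ℕ) (p : ℝ) (h1 : p ≤ 1) :
    ∃ k : ℕ, k < J + 1 ∧ p ≤ (1 / 2) ^ k ∧ ((1 / 2) ^ k ≤ 2 * p ∨ k = J) := by
  induction J with
  | zero => exact ⟨0, by omega, by simpa using h1, Or.inr rfl⟩
  | succ J ih =>
    by_cases h : p ≤ (1 / 2) ^ (J + 1)
    · exact ⟨J + 1, by omega, h, Or.inr rfl⟩
    · obtain ⟨k, a, b, c⟩ := ih
      refine ⟨k, by omega, b, Or.inl ?_⟩
      rcases c with c | c
      · exact c
      · rw [pow_succ] at h
        rw [c]
        linarith

variable {Γ : Type} [Group Γ] [Fintype Γ] {X : Type} [Fintype X] [DecidableEq X] [MulAction Γ X]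

omit [Fintype X] in
lemma orb_fst_le {β : Type} [DecidableEq β] (D : Finset (X × Triv β)) :
    orb Γ (D.image Prod.fst) ≤ orb Γ D := by
  unfold orb
  have : univ.image (fun g : Γ => g • D.image Prod.fst)
      = (univ.image (fun g : Γ => g • D)).image (fun E => E.image Prod.fst) := by
    rw [Finset.image_image]
    refine Finset.image_congr fun g _ => ?_
    simp only [Function.comp, Finset.smul_finset_def, Finset.image_image]
    rfl
  rw [this]
  exact Finset.card_image_le

theorem spread_bound (H : Finset X) (q : ℝ) (hq0 : 0 < q) (hq1 : q ≤ 1)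
    (hsp : ∀ D ⊆ H, 1 ≤ (orb Γ D : ℝ) * q ^ D.card) (J : ℕ) (hJ : H.card ≤ 2 ^ J)
    (F : Finset X) (hF : F.Nonempty) :
    ((univ.filter (fun g : Γ => g • F ⊆ H)).card : ℝ)
      ≤ Fintype.card Γ * (Real.exp 11 * q * (J + 1)) ^ F.card := by
  classical
  set B := univ.filter (fun g : Γ => g • F ⊆ H) with hB
  rcases Nat.eq_zero_or_pos B.card with hB0 | hB0
  · rw [hB0]; push_cast; positivity
  have hBr : (0 : ℝ) < B.card := by exact_mod_cast hB0
  have hΓ : (0 : ℝ) < Fintype.card Γ := by exact_mod_cast Fintype.card_pos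
  have hm : (1 : ℝ) ≤ F.card := by exact_mod_cast hF.card_pos
  set L := -Real.log q with hL
  have hL0 : 0 ≤ L := by have := Real.log_nonpos hq0.le hq1; linarith
  set p : X → ℝ := fun e => (∑ a ∈ B, chi (a • F) e) / B.card with hp
  have p1 : ∀ e, p e ≤ 1 := by
    intro e
    simp only [hp]
    rw [div_le_one hBr]
    have := Finset.sum_le_sum fun a (_ : a ∈ B) => chi_le_one (a • F) e
    simpa using this
  have p0 : ∀ e, 0 ≤ p e := fun e =>
    div_nonneg (Finset.sum_nonneg fun a _ => chi_nonneg _ _) hBr.le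
  have psum : ∑ e ∈ H, p e = F.card := by
    simp only [hp]
    rw [← Finset.sum_div, Finset.sum_comm, div_eq_iff hBr.ne']
    rw [Finset.sum_congr rfl (g := fun _ => (F.card : ℝ))]
    · simp [mul_comm]
    · intro a ha
      have hs : a • F ⊆ H := (Finset.mem_filter.1 ha).2
      simp only [chi]
      rw [Finset.sum_ite_mem, Finset.inter_eq_right.2 hs]
      simp
  choose k hk1 hk2 hk3 using fun e => exists_label J (p e) (p1 e)
  let κ : X → Triv (Fin (J + 1)) := fun e => (⟨k e, hk1 e⟩ : Fin (J + 1))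
  let H' : Finset (X × Triv (Fin (J + 1))) := H.image (fun e => (e, κ e))
  let U : Γ × Triv (F → Fin (J + 1)) → Finset (X × Triv (Fin (J + 1))) :=
    fun z => univ.image (fun f : F => (z.1 • f.1, (z.2 f : Fin (J + 1))))
  let lam : Γ → Triv (F → Fin (J + 1)) := fun a f => κ (a • f.1)
  let μ : Γ × Triv (F → Fin (J + 1)) → ℝ :=
    fun z => if z.2 = lam z.1 then (if z.1 ∈ B then (B.card : ℝ)⁻¹ else 0) else 0
  let c : ℝ := (Fintype.card Γ * ((J : ℝ) + 1) ^ F.card)⁻¹
  have hc : 0 < c := by positivity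
  have hμ : ∀ f : Γ × Triv (F → Fin (J + 1)) → ℝ,
      ∑ z, μ z * f z = (∑ a ∈ B, f (a, lam a)) / B.card := by
    intro f
    rw [Fintype.sum_prod_type]
    simp only [μ, ite_mul, zero_mul, Finset.sum_ite_eq', Finset.mem_univ, if_true]
    rw [Finset.sum_ite_mem, Finset.univ_inter, Finset.sum_div]
    exact Finset.sum_congr rfl fun a _ => by field_simp
  have hsp' : ∀ D ⊆ H', D.card * L ≤ Real.log (orb Γ D) := by
    intro D hD
    have a : D.image Prod.fst ⊆ H := by
      intro e he
      obtain ⟨y, hy, rfl⟩ := Finset.mem_image.1 he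
      obtain ⟨e', he', rfl⟩ := Finset.mem_image.1 (hD hy)
      exact he'
    have b : (D.image Prod.fst).card = D.card := by
      refine Finset.card_image_of_injOn fun y hy y' hy' h => ?_
      obtain ⟨e, _, rfl⟩ := Finset.mem_image.1 (hD hy)
      obtain ⟨e', _, rfl⟩ := Finset.mem_image.1 (hD hy')
      simp only at h
      rw [h]
    have d := hsp _ a
    rw [b] at d
    have o1 : (0 : ℝ) < orb Γ (D.image Prod.fst) := by exact_mod_cast orb_pos _
    have o2 : (orb Γ (D.image Prod.fst) : ℝ) ≤ orb Γ D := by exact_mod_cast orb_fst_le D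
    have e := Real.log_nonneg d
    rw [Real.log_mul o1.ne' (by positivity), Real.log_pow] at e
    have := Real.log_le_log o1 o2
    rw [hL]
    linarith
  have hchi : ∀ a e, chi (U (a, lam a)) (e, κ e) = chi (a • F) e := by
    intro a e
    unfold chi
    congr 1
    simp only [U, lam, Finset.mem_image, Finset.mem_univ, true_and, Finset.mem_smul_finset,
      Prod.mk.injEq, eq_iff_iff]
    constructor
    · rintro ⟨f, h, _⟩
      exact ⟨f.1, f.2, h⟩
    · rintro ⟨f, hf, h⟩
      exact ⟨⟨f, hf⟩, h, by rw [← h]⟩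
  have hπ : ∀ e, ∑ z, μ z * chi (U z) (e, κ e) = p e := by
    intro e
    rw [hμ]
    simp only [hchi, hp]
  obtain ⟨t, ht⟩ : ∃ t : ℕ, (1 / 2 : ℝ) ^ t * (H.card * L) ≤ 1 := by
    obtain ⟨t, ht⟩ := pow_unbounded_of_one_lt ((H.card : ℝ) * L) (one_lt_two)
    refine ⟨t, ?_⟩
    rw [one_div, inv_pow, inv_mul_le_iff₀ (by positivity)]
    linarith
  have key := doubling (Γ := Γ) H' L hL0 hsp' t (Γ × Triv (F → Fin (J + 1))) U μ (fun _ => c)
    (fun y => Fin.val (n := J + 1) y.2)
    (fun g z => by
      simp only [U, Finset.smul_finset_def, Finset.image_image]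
      refine Finset.image_congr fun f _ => ?_
      simp only [Function.comp, Prod.smul_fst, Prod.smul_snd, triv_smul,
        smul_eq_mul, mul_smul]
      rfl)
    (fun g y => rfl) (fun _ => hc.le) (fun _ _ => rfl)
    (by
      have : Fintype.card (Triv (F → Fin (J + 1))) = (J + 1) ^ F.card := by
        change Fintype.card (F → Fin (J + 1)) = _
        simp
      simp only [Finset.sum_const, Finset.card_univ, Fintype.card_prod, this, nsmul_eq_mul, c]
      push_cast
      rw [mul_inv_cancel₀ (by positivity)])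
    (fun z => by simp only [μ]; split_ifs <;> positivity)
    (by
      have := hμ fun _ => 1
      simp only [mul_one, Finset.sum_const, nsmul_eq_mul] at this
      rw [this, div_self hBr.ne'])
    (fun z hz => by
      refine ⟨hc, ?_⟩
      have h1 : z.2 = lam z.1 := by
        by_contra h
        simp [μ, h] at hz
      have h2 : z.1 ∈ B := by
        by_contra h
        simp [μ, h] at hz
      intro y hy
      obtain ⟨f, _, rfl⟩ := Finset.mem_image.1 hy
      refine Finset.mem_image.2 ⟨z.1 • f.1, (Finset.mem_filter.1 h2).2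
        (Finset.smul_mem_smul_finset f.2), ?_⟩
      rw [h1])
    (fun y hy => by
      obtain ⟨e, _, rfl⟩ := Finset.mem_image.1 hy
      rw [hπ]
      exact hk2 e)
  rw [Finset.sum_image (fun e _ e' _ h => (Prod.mk.inj h).1)] at key
  simp only [hπ] at key
  rw [hμ (fun z => Real.log (μ z / c))] at key
  have e1 : (∑ a ∈ B, Real.log (μ (a, lam a) / c)) / B.card
      = Real.log (Fintype.card Γ * ((J : ℝ) + 1) ^ F.card / B.card) := by
    rw [Finset.sum_congr rfl
      (g := fun _ => Real.log (Fintype.card Γ * ((J : ℝ) + 1) ^ F.card / B.card))]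
    · simp only [Finset.sum_const, nsmul_eq_mul]
      field_simp
    · intro a ha
      simp only [μ, c, ha, if_true]
      congr 1
      field_simp
  rw [e1] at key
  have e2 : F.card * L - 11 * F.card ≤
      ∑ e ∈ H, ((p e - (1 / 2) ^ t) * L - cost (p e) (k e)) := by
    have h1 : ∀ e ∈ H, (L - 8) * p e - ((1 / 2) ^ t * L + 2 * (1 / 2) ^ J)
        ≤ (p e - (1 / 2) ^ t) * L - cost (p e) (k e) := by
      intro e _
      have a := cost_le (p0 e) (k e)
      have b : ((1 : ℝ) / 2) ^ k e ≤ 2 * p e + (1 / 2) ^ J := by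
        rcases hk3 e with h | h
        · have : (0 : ℝ) ≤ (1 / 2) ^ J := by positivity
          linarith
        · rw [h]; linarith [p0 e]
      nlinarith
    refine le_trans ?_ (Finset.sum_le_sum h1)
    rw [Finset.sum_sub_distrib, ← Finset.mul_sum, psum]
    simp only [Finset.sum_const, nsmul_eq_mul]
    have h2 : (H.card : ℝ) * (1 / 2) ^ J ≤ 1 := by
      have : (H.card : ℝ) ≤ 2 ^ J := by exact_mod_cast hJ
      rw [one_div, inv_pow, mul_inv_le_iff₀ (by positivity)]
      linarith
    nlinarith
  have e3 := e2.trans key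
  rw [Real.le_log_iff_exp_le (by positivity), le_div_iff₀ hBr] at e3
  have e4 : Real.exp (F.card * L - 11 * F.card) * (Real.exp 11 * q) ^ F.card = 1 := by
    rw [mul_pow, ← Real.exp_nat_mul, ← Real.exp_log hq0, ← Real.exp_nat_mul, ← Real.exp_add,
      ← Real.exp_add, hL, Real.exp_eq_one_iff]
    ring
  have e5 : 0 < (Real.exp 11 * q) ^ F.card := by positivity
  have e6 := mul_le_mul_of_nonneg_right e3 e5.le
  rw [mul_right_comm, e4, one_mul] at e6
  refine e6.trans (le_of_eq ?_)
  rw [mul_pow (Real.exp 11 * q)]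
  ring

end Vale.Agent.P064
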