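import Vale.Agent.P230.Bern

open Finset

namespace Vale.Agent.P064

open Vale.Agent.P230

variable {X : Type} [Fintype X] [DecidableEq X]

lemma Ex_union_aux (a b : ℝ) (A : Finset X) : ∀ F : Finset X → ℝ, Dep A F →
    Ex a (fun w => Ex b (fun v => F (w ∪ v))) = Ex (a + b - a * b) F := by
  induction A using Finset.induction_on with
  | empty =>
    intro F hF
    have : F = fun _ => F ∅ := funext fun w => hF _ _ (by simp)
    rw [this]
    simp only [Ex_const]
  | insert c A hc ih =>
    intro F hF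
    have h1 : Dep A (fun w => F (insert c w)) := by
      intro w w' h
      refine hF _ _ ?_
      ext x
      have := Finset.ext_iff.1 h x
      simp only [Finset.mem_inter, Finset.mem_insert] at this ⊢
      tauto
    have h2 : Dep A (fun w => F (w.erase c)) := by
      intro w w' h
      refine hF _ _ ?_
      ext x
      have := Finset.ext_iff.1 h x
      simp only [Finset.mem_inter, Finset.mem_insert, Finset.mem_erase] at this ⊢
      tauto
    have i1 := ih _ h1
    have i2 := ih _ h2
    have e1 : Ex a (fun w => Ex b (fun v => F (insert c w ∪ v)))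
        = Ex (a + b - a * b) (fun w => F (insert c w)) := by
      rw [← i1]
      refine Ex_congr fun w => Ex_congr fun v => ?_
      rw [Finset.insert_union]
    have e2 : Ex a (fun w => Ex b (fun v => F (w.erase c ∪ v)))
        = b * Ex (a + b - a * b) (fun w => F (insert c w))
          + (1 - b) * Ex (a + b - a * b) (fun w => F (w.erase c)) := by
      rw [← i1, ← i2, ← Ex_mul, ← Ex_mul, ← Ex_add]
      refine Ex_congr fun w => ?_
      rw [Ex_split c]
      congr 2
      · refine Ex_congr fun v => ?_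
        congr 1
        ext x
        simp only [Finset.mem_union, Finset.mem_insert, Finset.mem_erase]
        tauto
      · refine Ex_congr fun v => ?_
        rw [Finset.erase_union_distrib]
    rw [Ex_split c, Ex_split c F, e1, e2]
    ring

lemma Ex_union (a b : ℝ) (F : Finset X → ℝ) :
    Ex a (fun w => Ex b (fun v => F (w ∪ v))) = Ex (a + b - a * b) F :=
  Ex_union_aux a b univ F fun w w' h => by simpa using congrArg F (by simpa using h)

omit [Fintype X] in
lemma wt_union_le [Fintype X] {p : ℝ} (h0 : 0 ≤ p) (h1 : p ≤ 1) (W U : Finset X)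
    (h : Disjoint W U) : wt p W * p ^ U.card ≤ wt p (W ∪ U) := by
  unfold wt
  have hc : (W ∪ U).card ≤ Fintype.card X := Finset.card_le_univ _
  rw [Finset.card_union_of_disjoint h] at hc ⊢
  have : (1 - p) ^ (Fintype.card X - W.card) ≤ (1 - p) ^ (Fintype.card X - (W.card + U.card)) :=
    pow_le_pow_of_le_one (by linarith) (by linarith) (by omega)
  rw [pow_add, mul_right_comm]
  exact mul_le_mul_of_nonneg_left this (by positivity)

/-- Indicator that `W` contains no member of the family. -/
noncomputable def miss {ι : Type} (A : Finset ι) (S : ι → Finset X) (W : Finset X) : ℝ :=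
  if ∃ i ∈ A, S i ⊆ W then 0 else 1

omit [Fintype X] in
lemma miss_nonneg {ι : Type} (A : Finset ι) (S : ι → Finset X) (W : Finset X) :
    0 ≤ miss A S W := by unfold miss; split_ifs <;> norm_num

omit [Fintype X] in
lemma miss_le_one {ι : Type} (A : Finset ι) (S : ι → Finset X) (W : Finset X) :
    miss A S W ≤ 1 := by unfold miss; split_ifs <;> norm_num

omit [Fintype X] in
lemma exists_fragment {ι : Type} (A : Finset ι) (S : ι → Finset X) (W : Finset X) (i : ι) :
    ∃ T : Finset X, i ∈ A → (T ⊆ S i ∧ Disjoint W T ∧ (∃ j ∈ A, S j ⊆ W ∪ T) ∧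
      ∀ j ∈ A, S j ⊆ W ∪ T → T ⊆ S j) := by
  by_cases hi : i ∈ A
  · obtain ⟨j, hj, hmin⟩ := Finset.exists_min_image (A.filter (fun j => S j ⊆ W ∪ S i))
      (fun j => (S j \ W).card) ⟨i, Finset.mem_filter.2 ⟨hi, Finset.subset_union_right⟩⟩
    obtain ⟨hjA, hjS⟩ := Finset.mem_filter.1 hj
    have hT : S j \ W ⊆ S i := by
      intro x hx
      obtain ⟨a, b⟩ := Finset.mem_sdiff.1 hx
      exact (Finset.mem_union.1 (hjS a)).resolve_left b
    refine ⟨S j \ W, fun _ => ⟨hT, Finset.disjoint_sdiff, ⟨j, hjA, ?_⟩, fun k hk hkS => ?_⟩⟩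
    · rw [Finset.union_sdiff_self_eq_union]
      exact Finset.subset_union_right
    · have a := hmin k (Finset.mem_filter.2
        ⟨hk, hkS.trans (Finset.union_subset_union le_rfl hT)⟩)
      have b : S k \ W ⊆ S j \ W := by
        intro x hx
        obtain ⟨c, d⟩ := Finset.mem_sdiff.1 hx
        exact (Finset.mem_union.1 (hkS c)).resolve_left d
      rw [← Finset.eq_of_subset_of_card_le b a]
      exact Finset.sdiff_subset
  · exact ⟨∅, fun h => absurd h hi⟩

lemma bad_bound {ι : Type} (A : Finset ι) (S : ι → Finset X) (κ N : ℝ) (hκ : 0 < κ)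
    (hκ1 : 64 * κ ≤ 1) (hN : 0 ≤ N) (k : ℕ) (hS : ∀ i ∈ A, (S i).card < 2 ^ (k + 1))
    (hsp : ∀ J : Finset X, J.Nonempty → ((A.filter (fun i => J ⊆ S i)).card : ℝ) ≤ N * κ ^ J.card)
    (T : Finset X → ι → Finset X)
    (hT : ∀ W, ∀ i ∈ A, T W i ⊆ S i ∧ Disjoint W (T W i) ∧ (∃ j ∈ A, S j ⊆ W ∪ T W i) ∧
      ∀ j ∈ A, S j ⊆ W ∪ T W i → T W i ⊆ S j) :
    Ex (64 * κ) (fun W => ((A.filter (fun i => 2 ^ k ≤ (T W i).card)).card : ℝ))
      ≤ N * (1 / 16) ^ (2 ^ k) := by
  classical
  set p := 64 * κ with hp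
  have p0 : 0 < p := by positivity
  have hχ : ∀ Z : Finset X, ∃ C : Finset X, C.card ≤ 2 ^ (k + 1) ∧
      ((∃ j ∈ A, S j ⊆ Z) → ∃ j ∈ A, S j ⊆ Z ∧ C = S j) := by
    intro Z
    by_cases h : ∃ j ∈ A, S j ⊆ Z
    · obtain ⟨j, a, b⟩ := h
      exact ⟨S j, (hS j a).le, fun _ => ⟨j, a, b, rfl⟩⟩
    · exact ⟨∅, by simp, fun h' => absurd h' h⟩
  choose χ hχ1 hχ2 using hχ
  let g : Finset X → Finset X → ℝ := fun Z U =>
    if 2 ^ k ≤ U.card ∧ U ⊆ χ Z then wt p Z * (N * (1 / 64) ^ (2 ^ k)) else 0
  have g0 : ∀ Z U, 0 ≤ g Z U := by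
    intro Z U
    simp only [g]
    split_ifs
    · exact mul_nonneg (wt_nonneg p0.le hκ1 _) (by positivity)
    · exact le_rfl
  have step1 : ∀ W, wt p W * ((A.filter (fun i => 2 ^ k ≤ (T W i).card)).card : ℝ)
      ≤ ∑ U, if Disjoint W U then g (W ∪ U) U else 0 := by
    intro W
    rw [Finset.card_eq_sum_card_fiberwise (f := T W) (t := univ) (fun _ _ => Finset.mem_univ _)]
    push_cast
    rw [Finset.mul_sum]
    refine Finset.sum_le_sum fun U _ => ?_
    rcases Finset.eq_empty_or_nonempty
      ((A.filter (fun i => 2 ^ k ≤ (T W i).card)).filter (fun i => T W i = U)) with h | ⟨i, hi⟩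
    · rw [h]
      simp only [Finset.card_empty, Nat.cast_zero, mul_zero]
      split_ifs
      · exact g0 _ _
      · exact le_rfl
    · obtain ⟨hi1, hU⟩ := Finset.mem_filter.1 hi
      obtain ⟨hiA, hk⟩ := Finset.mem_filter.1 hi1
      obtain ⟨_, t2, t3, t4⟩ := hT W i hiA
      rw [hU] at t2 t3 t4 hk
      obtain ⟨j, hj, hjS, hjC⟩ := hχ2 _ t3
      have hUχ : U ⊆ χ (W ∪ U) := by rw [hjC]; exact t4 j hj hjS
      rw [if_pos t2]
      simp only [g]
      rw [if_pos ⟨hk, hUχ⟩]
      have hne : U.Nonempty := Finset.card_pos.1 (lt_of_lt_of_le (by positivity) hk)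
      have c1 : (((A.filter (fun i => 2 ^ k ≤ (T W i).card)).filter (fun i => T W i = U)).card : ℝ)
          ≤ N * κ ^ U.card := by
        refine le_trans ?_ (hsp U hne)
        refine Nat.cast_le.2 (Finset.card_le_card fun i' hi' => ?_)
        obtain ⟨a, b⟩ := Finset.mem_filter.1 hi'
        have a' := (Finset.mem_filter.1 a).1
        exact Finset.mem_filter.2 ⟨a', b ▸ (hT W i' a').1⟩
      have c2 : κ ^ U.card = p ^ U.card * (1 / 64) ^ U.card := by
        rw [← mul_pow, hp]
        congr 1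
        ring
      have c3 : ((1 : ℝ) / 64) ^ U.card ≤ (1 / 64) ^ (2 ^ k) :=
        pow_le_pow_of_le_one (by norm_num) (by norm_num) hk
      have c4 := wt_union_le p0.le hκ1 W U t2
      have w0 := wt_nonneg p0.le hκ1 W
      calc wt p W * _ ≤ wt p W * (N * κ ^ U.card) := mul_le_mul_of_nonneg_left c1 w0
        _ = (wt p W * p ^ U.card) * (N * (1 / 64) ^ U.card) := by rw [c2]; ring
        _ ≤ wt p (W ∪ U) * (N * (1 / 64) ^ (2 ^ k)) :=
          mul_le_mul c4 (mul_le_mul_of_nonneg_left c3 hN) (by positivity)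
            (wt_nonneg p0.le hκ1 _)
  have step2 : ∀ U : Finset X, (∑ W, if Disjoint W U then g (W ∪ U) U else 0) ≤ ∑ Z, g Z U := by
    intro U
    rw [← Finset.sum_filter, ← Finset.sum_image (s := univ.filter (fun W => Disjoint W U))
      (g := fun W => W ∪ U) (f := fun Z => g Z U)]
    · exact Finset.sum_le_sum_of_subset_of_nonneg (Finset.subset_univ _) fun Z _ _ => g0 Z U
    · intro W hW W' hW' h
      have a : Disjoint W U := (Finset.mem_filter.1 hW).2
      have b : Disjoint W' U := (Finset.mem_filter.1 hW').2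
      have := congrArg (fun Z => Z \ U) h
      simpa only [Finset.union_sdiff_cancel_right a, Finset.union_sdiff_cancel_right b] using this
  have step3 : ∀ Z, ∑ U, g Z U ≤ wt p Z * (N * (1 / 16) ^ (2 ^ k)) := by
    intro Z
    simp only [g]
    rw [← Finset.sum_filter, Finset.sum_const, nsmul_eq_mul]
    have a : ((univ.filter (fun U : Finset X => 2 ^ k ≤ U.card ∧ U ⊆ χ Z)).card : ℝ)
        ≤ 4 ^ (2 ^ k) := by
      have b : (univ.filter (fun U : Finset X => 2 ^ k ≤ U.card ∧ U ⊆ χ Z)).card
          ≤ (χ Z).powerset.card :=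
        Finset.card_le_card fun U hU => Finset.mem_powerset.2 (Finset.mem_filter.1 hU).2.2
      rw [Finset.card_powerset] at b
      have c : 2 ^ (χ Z).card ≤ 4 ^ (2 ^ k) := by
        rw [show 4 = 2 ^ 2 by norm_num, ← pow_mul, ← pow_succ']
        exact Nat.pow_le_pow_right (by norm_num) (hχ1 Z)
      exact_mod_cast b.trans c
    have w0 := wt_nonneg p0.le hκ1 Z
    refine (mul_le_mul_of_nonneg_right a (by positivity)).trans (le_of_eq ?_)
    have : ((1 : ℝ) / 16) ^ (2 ^ k) = 4 ^ (2 ^ k) * (1 / 64) ^ (2 ^ k) := by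
      rw [← mul_pow]; norm_num
    rw [this]
    ring
  calc Ex p (fun W => ((A.filter (fun i => 2 ^ k ≤ (T W i).card)).card : ℝ))
      ≤ ∑ W, ∑ U, if Disjoint W U then g (W ∪ U) U else 0 :=
        Finset.sum_le_sum fun W _ => step1 W
    _ ≤ ∑ U, ∑ Z, g Z U := by
        rw [Finset.sum_comm]
        exact Finset.sum_le_sum fun U _ => step2 U
    _ ≤ ∑ Z, wt p Z * (N * (1 / 16) ^ (2 ^ k)) := by
        rw [Finset.sum_comm]
        exact Finset.sum_le_sum fun Z _ => step3 Z
    _ = N * (1 / 16) ^ (2 ^ k) := Ex_const _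

theorem spread_lemma (κ N : ℝ) (hκ : 0 < κ) (hκ1 : 64 * κ < 1) (hN : 0 ≤ N) {ι : Type} (k : ℕ) :
    ∀ (A : Finset ι) (S : ι → Finset X) (P : ℝ), k * (64 * κ) ≤ P → P ≤ 1 →
      (∀ i ∈ A, (S i).card < 2 ^ k) →
      (∀ J : Finset X, J.Nonempty → ((A.filter (fun i => J ⊆ S i)).card : ℝ) ≤ N * κ ^ J.card) →
      A.card * Ex P (miss A S) ≤ N * (1 / 2 - (1 / 2) ^ (k + 1)) := by
  classical
  induction k with
  | zero =>
    intro A S P _ _ hS _
    rcases A.eq_empty_or_nonempty with rfl | ⟨i, hi⟩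
    · simp
    · have : miss A S = fun _ => 0 := by
        funext W
        have h : S i = ∅ := Finset.card_eq_zero.1 (by simpa using hS i hi)
        unfold miss
        rw [if_pos ⟨i, hi, by simp [h]⟩]
      rw [this, Ex_const]
      simp
  | succ k ih =>
    intro A S P hP0 hP1 hS hsp
    set p := 64 * κ with hp
    have p0 : 0 < p := by positivity
    have hk0 : (0 : ℝ) ≤ k := Nat.cast_nonneg k
    push_cast at hP0
    set r := (P - p) / (1 - p) with hr
    have q0 : 0 < 1 - p := by linarith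
    have kp : 0 ≤ (k : ℝ) * p := by positivity
    have r0 : k * p ≤ r := by
      rw [hr, le_div_iff₀ q0]
      nlinarith
    have r1 : r ≤ 1 := by
      rw [hr, div_le_one q0]
      linarith
    have hP : P = p + r - p * r := by
      rw [hr]
      field_simp
      ring
    choose T hT using fun W i => exists_fragment A S W i
    have hb := bad_bound A S κ N hκ hκ1.le hN k hS hsp T (fun W i hi => hT W i hi)
    have h1 : ∀ W, A.card * Ex r (fun v => miss A S (W ∪ v))
        ≤ N * (1 / 2 - (1 / 2) ^ (k + 1))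
          + ((A.filter (fun i => 2 ^ k ≤ (T W i).card)).card : ℝ) := by
      intro W
      set A' := A.filter (fun i => ¬ 2 ^ k ≤ (T W i).card) with hA'
      have i1 := ih A' (T W) r r0 r1
        (fun i hi => not_le.1 (Finset.mem_filter.1 hi).2)
        (fun J hJ => by
          refine le_trans ?_ (hsp J hJ)
          refine Nat.cast_le.2 (Finset.card_le_card fun i hi => ?_)
          obtain ⟨a, b⟩ := Finset.mem_filter.1 hi
          have a' := (Finset.mem_filter.1 a).1
          exact Finset.mem_filter.2 ⟨a', b.trans (hT W i a').1⟩)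
      have i2 : Ex r (fun v => miss A S (W ∪ v)) ≤ Ex r (miss A' (T W)) := by
        refine Ex_mono (kp.trans r0) r1 fun v => ?_
        by_cases h : ∃ i ∈ A', T W i ⊆ v
        · obtain ⟨i, hi, hv⟩ := h
          obtain ⟨j, hj, hjS⟩ := (hT W i (Finset.mem_filter.1 hi).1).2.2.1
          have : miss A S (W ∪ v) = 0 := by
            unfold miss
            rw [if_pos ⟨j, hj, hjS.trans (Finset.union_subset_union le_rfl hv)⟩]
          rw [this]
          exact miss_nonneg _ _ _
        · have : miss A' (T W) v = 1 := by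
            unfold miss
            rw [if_neg h]
          rw [this]
          exact miss_le_one _ _ _
      have i3 : Ex r (fun v => miss A S (W ∪ v)) ≤ 1 := by
        have := Ex_mono (kp.trans r0) r1 (fun v => miss_le_one A S (W ∪ v))
        rwa [Ex_const] at this
      have i4 : (A.card : ℝ) = ((A.filter (fun i => 2 ^ k ≤ (T W i).card)).card : ℝ) + A'.card := by
        exact_mod_cast (Finset.card_filter_add_card_filter_not _).symm
      have i5 := mul_le_mul_of_nonneg_left i2 (Nat.cast_nonneg A'.card)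
      have i6 := mul_le_mul_of_nonneg_left i3
        (Nat.cast_nonneg (α := ℝ) (A.filter (fun i => 2 ^ k ≤ (T W i).card)).card)
      rw [i4, add_mul]
      linarith
    have h2 := Ex_mono p0.le hκ1.le h1
    rw [Ex_mul, Ex_add, Ex_const, Ex_union, ← hP] at h2
    have h3 : ((1 : ℝ) / 16) ^ (2 ^ k) ≤ (1 / 2) ^ (k + 1 + 1) := by
      rw [show ((1 : ℝ) / 16) = (1 / 2) ^ 4 by norm_num, ← pow_mul]
      refine pow_le_pow_of_le_one (by norm_num) (by norm_num) ?_
      have := Nat.lt_two_pow_self (n := k)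
      omega
    have h4 := mul_le_mul_of_nonneg_left h3 hN
    have h5 : ((1 : ℝ) / 2) ^ (k + 1) = 2 * (1 / 2) ^ (k + 1 + 1) := by rw [pow_succ _ (k + 1)]; ring
    rw [h5] at h2
    nlinarith

end Vale.Agent.P064
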