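import Vale.Agent.P064.Defs
import Vale.Agent.P064.Label
import Vale.Agent.P064.Spread

open Finset Pointwise

namespace Vale.Agent.P064

open Vale.Agent.P230

/-- Edges of the complete graph. -/
def Edge (n : ℕ) : Type := {e : Sym2 (Fin n) // ¬ e.IsDiag}

instance (n : ℕ) : Fintype (Edge n) := inferInstanceAs (Fintype {e : Sym2 (Fin n) // ¬ e.IsDiag})
instance (n : ℕ) : DecidableEq (Edge n) :=
  inferInstanceAs (DecidableEq {e : Sym2 (Fin n) // ¬ e.IsDiag})
instance (n : ℕ) : MulAction (Equiv.Perm (Fin n)) (Edge n) where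
  smul g e := ⟨e.1.map g, fun h => e.2 ((Sym2.isDiag_map g.injective).1 h)⟩
  one_smul e := Subtype.ext (by
    change Sym2.map id e.1 = e.1
    rw [Sym2.map_id]; rfl)
  mul_smul g h e := Subtype.ext (by
    change Sym2.map (g ∘ h) e.1 = Sym2.map g (Sym2.map h e.1)
    rw [Sym2.map_map])

variable {n : ℕ}

lemma edge_smul_val (g : Equiv.Perm (Fin n)) (e : Edge n) : (g • e).1 = e.1.map g := rfl

lemma card_edge : Fintype.card (Edge n) = n.choose 2 := by
  change Fintype.card {e : Sym2 (Fin n) // ¬ e.IsDiag} = _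
  rw [Sym2.card_subtype_not_diag, Fintype.card_fin]

open Classical in
/-- A set of unordered pairs as a finite set of edges. -/
noncomputable def toE (s : Set (Sym2 (Fin n))) : Finset (Edge n) := univ.filter (fun e => e.1 ∈ s)

lemma mem_toE {s : Set (Sym2 (Fin n))} {e : Edge n} : e ∈ toE s ↔ e.1 ∈ s := by simp [toE]

lemma card_toE {s : Set (Sym2 (Fin n))} (hs : ∀ e ∈ s, ¬ e.IsDiag) : (toE s).card = s.ncard := by
  rw [← Set.ncard_coe_finset, ← Set.ncard_image_of_injective (f := fun e : Edge n => e.1) _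
    (fun a b h => Subtype.ext h)]
  congr 1
  ext e
  simp only [Set.mem_image, Finset.mem_coe, mem_toE]
  constructor
  · rintro ⟨x, hx, rfl⟩; exact hx
  · intro h; exact ⟨⟨e, hs e h⟩, h, rfl⟩

lemma toE_inj {s t : Set (Sym2 (Fin n))} (hs : ∀ e ∈ s, ¬ e.IsDiag) (ht : ∀ e ∈ t, ¬ e.IsDiag)
    (h : toE s = toE t) : s = t := by
  ext e
  constructor
  · intro he
    have : (⟨e, hs e he⟩ : Edge n) ∈ toE s := mem_toE.2 he
    rw [h] at this
    exact mem_toE.1 this
  · intro he
    have : (⟨e, ht e he⟩ : Edge n) ∈ toE t := mem_toE.2 he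
    rw [← h] at this
    exact mem_toE.1 this

lemma smul_toE (g : Equiv.Perm (Fin n)) (s : Set (Sym2 (Fin n))) :
    g • toE s = toE (Sym2.map g '' s) := by
  ext e
  rw [← Finset.inv_smul_mem_iff, mem_toE, mem_toE, edge_smul_val]
  constructor
  · intro h
    refine ⟨_, h, ?_⟩
    rw [Sym2.map_map]
    simp
  · rintro ⟨x, hx, h⟩
    rw [← h, Sym2.map_map]
    simpa using hx

lemma gnpExp_eq (p : ℝ) (f : Finset (Edge n) → ℝ) :
    gnpExp n p (fun G => f (toE G.edgeSet)) = Ex p f := by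
  unfold gnpExp Ex wt
  refine Fintype.sum_bijective (fun G : SimpleGraph (Fin n) => toE G.edgeSet) ⟨?_, ?_⟩ _ _ ?_
  · intro G G' h
    exact SimpleGraph.edgeSet_injective (toE_inj (fun e => G.not_isDiag_of_mem_edgeSet)
      (fun e => G'.not_isDiag_of_mem_edgeSet) h)
  · intro w
    refine ⟨SimpleGraph.fromEdgeSet (Subtype.val '' (w : Set (Edge n))), ?_⟩
    ext e
    simp only [mem_toE, SimpleGraph.edgeSet_fromEdgeSet, Set.mem_sdiff, Sym2.mem_diagSet]
    constructor
    · rintro ⟨⟨x, hx, h⟩, _⟩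
      rw [← (Subtype.ext h : x = e)]
      exact hx
    · intro h
      exact ⟨⟨e, h, rfl⟩, e.2⟩
  · intro G
    rw [card_toE (fun e => G.not_isDiag_of_mem_edgeSet), card_edge]

lemma gnpExp_mono {p : ℝ} (h0 : 0 ≤ p) (h1 : p ≤ 1) {f g : SimpleGraph (Fin n) → ℝ}
    (h : ∀ G, f G ≤ g G) : gnpExp n p f ≤ gnpExp n p g := by
  have : 0 ≤ 1 - p := by linarith
  exact Finset.sum_le_sum fun G _ => mul_le_mul_of_nonneg_left (h G) (by positivity)

open Classical in
/-- A set of vertices as a finite set. -/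
noncomputable def toV (s : Set (Fin n)) : Finset (Fin n) := univ.filter (fun v => v ∈ s)

lemma mem_toV {s : Set (Fin n)} {v : Fin n} : v ∈ toV s ↔ v ∈ s := by simp [toV]

lemma smul_toV (g : Equiv.Perm (Fin n)) (s : Set (Fin n)) : g • toV s = toV (g '' s) := by
  ext v
  simp only [Finset.mem_smul_finset, mem_toV, Set.mem_image, Equiv.Perm.smul_def]

/-- The vertex and edge sets of the image of `F` under `φ`. -/
noncomputable def pr {W : Type} (F : SimpleGraph W) (φ : W → Fin n) :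
    Finset (Fin n) × Finset (Edge n) :=
  (toV (Set.range φ), toE (Sym2.map φ '' F.edgeSet))

lemma smul_pr {W : Type} (F : SimpleGraph W) (φ : W → Fin n) (g : Equiv.Perm (Fin n)) :
    g • pr F φ = pr F (g ∘ φ) := by
  unfold pr
  rw [Prod.smul_mk, smul_toV, smul_toE, Set.range_comp, Set.image_image]
  simp only [Sym2.map_map]

/-- Number of placements of `F` with all edges in `w`. -/
noncomputable def cnt {W : Type} (F : SimpleGraph W) (φ : W → Fin n) (w : Finset (Edge n)) : ℕ :=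
  ((univ.image (fun g : Equiv.Perm (Fin n) => g • pr F φ)).filter (fun z => z.2 ⊆ w)).card

lemma copyCount_eq_image {V W : Type} [Fintype V] [Finite W] (G : SimpleGraph V)
    (F : SimpleGraph W) (ι : V → Fin n) (hι : Function.Injective ι) :
    G.copyCount F = Set.ncard (Set.range (fun c : F.Copy G => pr F (ι ∘ c))) := by
  classical
  have := Fintype.ofFinite W
  rw [SimpleGraph.copyCount_eq_card_image_copyToSubgraph, ← Set.ncard_coe_finset]
  let enc : G.Subgraph → Finset (Fin n) × Finset (Edge n) :=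
    fun G' => (toV (ι '' G'.verts), toE (Sym2.map ι '' G'.edgeSet))
  have hd : ∀ G' : G.Subgraph, ∀ e ∈ Sym2.map ι '' G'.edgeSet, ¬ e.IsDiag := by
    rintro G' _ ⟨e, he, rfl⟩ h
    exact G.not_isDiag_of_mem_edgeSet (G'.edgeSet_subset he) ((Sym2.isDiag_map hι).1 h)
  have hinj : Function.Injective enc := by
    intro A B h
    have h1 : toV (ι '' A.verts) = toV (ι '' B.verts) := congrArg Prod.fst h
    have h2 := toE_inj (hd A) (hd B) (congrArg Prod.snd h)
    have h3 : ι '' A.verts = ι '' B.verts := by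
      ext v
      rw [← mem_toV, h1, mem_toV]
    have h4 := hι.image_injective h3
    have h5 := (Sym2.map.injective hι).image_injective h2
    refine SimpleGraph.Subgraph.ext h4 ?_
    funext a b
    rw [← SimpleGraph.Subgraph.mem_edgeSet, h5, SimpleGraph.Subgraph.mem_edgeSet]
  rw [← Set.ncard_image_of_injective _ hinj]
  congr 1
  have key : ∀ c : F.Copy G, enc c.toSubgraph = pr F (ι ∘ c) := by
    intro c
    simp only [enc, pr, SimpleGraph.Copy.toSubgraph, SimpleGraph.Subgraph.map_verts,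
      SimpleGraph.Subgraph.verts_top, SimpleGraph.Subgraph.edgeSet_map,
      SimpleGraph.Subgraph.edgeSet_top, Set.image_univ, Set.range_comp, Set.image_image,
      Sym2.map_map, SimpleGraph.Copy.coe_toHom]
  ext z
  simp only [Finset.coe_image, Finset.coe_univ, Set.image_univ, Set.mem_image, Set.mem_range,
    exists_exists_eq_and, key]

lemma copyCount_le_cnt {V W : Type} [Fintype V] [Finite W] (G : SimpleGraph V)
    (F : SimpleGraph W) (ι : V → Fin n) (hι : Function.Injective ι)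
    (φ : W → Fin n) (hφ : Function.Injective φ) :
    G.copyCount F ≤ cnt F φ (toE (Sym2.map ι '' G.edgeSet)) := by
  rw [copyCount_eq_image G F ι hι, cnt, ← Set.ncard_coe_finset]
  refine Set.ncard_le_ncard ?_ (Finset.finite_toSet _)
  rintro _ ⟨c, rfl⟩
  obtain ⟨g, hg⟩ := Equiv.Perm.exists_extending_pair φ (ι ∘ c) hφ (hι.comp c.injective)
  refine Finset.mem_coe.2 (Finset.mem_filter.2 ⟨Finset.mem_image.2 ⟨g, Finset.mem_univ _, ?_⟩, ?_⟩)
  · rw [smul_pr]
    congr 1
    exact funext hg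
  · intro e he
    obtain ⟨x, hx, h⟩ := mem_toE.1 he
    refine mem_toE.2 ⟨Sym2.map c x, c.toHom.map_mem_edgeSet hx, ?_⟩
    rw [Sym2.map_map, h]

lemma copyCount_eq_cnt {W : Type} [Finite W] (G : SimpleGraph (Fin n))
    (F : SimpleGraph W) (φ : W → Fin n) (hφ : Function.Injective φ) :
    G.copyCount F = cnt F φ (toE G.edgeSet) := by
  refine le_antisymm ?_ ?_
  · simpa using copyCount_le_cnt G F id Function.injective_id φ hφ
  · rw [copyCount_eq_image G F id Function.injective_id, cnt, ← Set.ncard_coe_finset]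
    refine Set.ncard_le_ncard ?_ (Set.toFinite _)
    intro z hz
    obtain ⟨h1, h2⟩ := Finset.mem_filter.1 (Finset.mem_coe.1 hz)
    obtain ⟨g, _, rfl⟩ := Finset.mem_image.1 h1
    rw [smul_pr] at h2 ⊢
    have hgφ : Function.Injective (g ∘ φ) := g.injective.comp hφ
    refine ⟨⟨⟨g ∘ φ, fun {a b} hab => ?_⟩, hgφ⟩, rfl⟩
    have h3 : (⟨s(g (φ a), g (φ b)), fun h => hab.ne (hgφ (Sym2.mk_isDiag_iff.1 h))⟩ : Edge n)
        ∈ (pr F (g ∘ φ)).2 := mem_toE.2 ⟨s(a, b), hab, rfl⟩
    exact mem_toE.1 (h2 h3)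

/-- Number of placements of `F`. -/
noncomputable def osz {W : Type} (F : SimpleGraph W) (φ : W → Fin n) : ℕ :=
  (univ.image (fun g : Equiv.Perm (Fin n) => g • pr F φ)).card

lemma Ex_cnt {W : Type} (F : SimpleGraph W) (φ : W → Fin n) (p : ℝ) :
    Ex p (fun w => (cnt F φ w : ℝ)) = osz F φ * p ^ (pr F φ).2.card := by
  have : ∀ w, (cnt F φ w : ℝ)
      = ∑ z ∈ univ.image (fun g : Equiv.Perm (Fin n) => g • pr F φ), ind z.2 w := by
    intro w
    unfold cnt ind
    rw [Finset.card_filter]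
    push_cast
    rfl
  simp only [this]
  rw [Ex_sum, Finset.sum_congr rfl (g := fun _ => p ^ (pr F φ).2.card)]
  · simp [osz]
  · intro z hz
    obtain ⟨g, _, rfl⟩ := Finset.mem_image.1 hz
    rw [Ex_ind, Prod.smul_snd, Finset.card_smul_finset]

lemma gnpExp_copyCount {W : Type} [Finite W] (F : SimpleGraph W) (φ : W → Fin n)
    (hφ : Function.Injective φ) (p : ℝ) :
    gnpExp n p (fun G => (G.copyCount F : ℝ)) = osz F φ * p ^ (pr F φ).2.card := by
  rw [← Ex_cnt, ← gnpExp_eq]
  simp only [copyCount_eq_cnt _ F φ hφ]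

lemma fiber_count {Γ Z : Type} [Group Γ] [Fintype Γ] [DecidableEq Z] [MulAction Γ Z] (z₀ : Z)
    (Q : Z → Prop) [DecidablePred Q] :
    (univ.filter (fun g : Γ => Q (g • z₀))).card
      = (univ.filter (fun g : Γ => g • z₀ = z₀)).card
        * ((univ.image (fun g : Γ => g • z₀)).filter Q).card := by
  rw [Finset.card_eq_sum_card_fiberwise (f := fun g : Γ => g • z₀)
    (t := (univ.image (fun g : Γ => g • z₀)).filter Q)]
  · rw [Finset.sum_congr rfl (g := fun _ => (univ.filter (fun g : Γ => g • z₀ = z₀)).card)]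
    · simp [mul_comm]
    · intro z hz
      obtain ⟨h1, h2⟩ := Finset.mem_filter.1 hz
      obtain ⟨h, _, rfl⟩ := Finset.mem_image.1 h1
      refine Finset.card_bij' (fun g _ => h⁻¹ * g) (fun g _ => h * g) ?_ ?_ ?_ ?_
      · intro g hg
        have := (Finset.mem_filter.1 hg).2
        simp only [Finset.mem_filter, Finset.mem_univ, true_and]
        rw [mul_smul, this, inv_smul_smul]
      · intro g hg
        have := (Finset.mem_filter.1 hg).2
        simp only [Finset.mem_filter, Finset.mem_univ, true_and]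
        rw [mul_smul, this]
        exact ⟨h2, rfl⟩
      · intro g _; simp
      · intro g _; simp
  · intro g hg
    exact Finset.mem_coe.2 (Finset.mem_filter.2 ⟨Finset.mem_image_of_mem _ (Finset.mem_univ _),
      (Finset.mem_filter.1 (Finset.mem_coe.1 hg)).2⟩)

lemma cnt_mul {W : Type} (F : SimpleGraph W) (φ : W → Fin n) (w : Finset (Edge n)) :
    cnt F φ w * Fintype.card (Equiv.Perm (Fin n))
      = osz F φ * (univ.filter (fun g : Equiv.Perm (Fin n) => g • (pr F φ).2 ⊆ w)).card := by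
  have a := fiber_count (Γ := Equiv.Perm (Fin n)) (pr F φ) (fun z => z.2 ⊆ w)
  have b := fiber_count (Γ := Equiv.Perm (Fin n)) (pr F φ) (fun _ => True)
  simp only [Finset.filter_true, Finset.card_univ] at b
  simp only [Prod.smul_snd] at a
  rw [a, b, cnt, osz]
  ring

lemma osz_pos {W : Type} (F : SimpleGraph W) (φ : W → Fin n) : 0 < osz F φ :=
  Finset.card_pos.2 ⟨_, Finset.mem_image_of_mem _ (Finset.mem_univ 1)⟩

lemma cnt_le_osz {W : Type} (F : SimpleGraph W) (φ : W → Fin n) (w : Finset (Edge n)) :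
    cnt F φ w ≤ osz F φ := Finset.card_filter_le _ _

lemma osz_le_orb {W : Type} (F : SimpleGraph W) (hF : ∀ a, ∃ b, F.Adj a b) (φ : W → Fin n)
    (hφ : Function.Injective φ) : osz F φ ≤ orb (Equiv.Perm (Fin n)) (pr F φ).2 := by
  have key : ∀ g : Equiv.Perm (Fin n), ∀ v,
      v ∈ (g • pr F φ).1 ↔ ∃ e ∈ (g • pr F φ).2, v ∈ e.1 := by
    intro g v
    rw [smul_pr]
    have hgφ : Function.Injective (g ∘ φ) := g.injective.comp hφ
    constructor
    · intro h
      obtain ⟨a, rfl⟩ := mem_toV.1 h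
      obtain ⟨b, hab⟩ := hF a
      exact ⟨⟨s(g (φ a), g (φ b)), fun h => hab.ne (hgφ (Sym2.mk_isDiag_iff.1 h))⟩,
        mem_toE.2 ⟨s(a, b), hab, rfl⟩, Sym2.mem_mk_left _ _⟩
    · rintro ⟨e, he, hv⟩
      obtain ⟨x, _, h⟩ := mem_toE.1 he
      rw [← h] at hv
      obtain ⟨a, _, rfl⟩ := Sym2.mem_map.1 hv
      exact mem_toV.2 ⟨a, rfl⟩
  refine Finset.card_le_card_of_injOn Prod.snd ?_ ?_
  · intro z hz
    obtain ⟨g, _, rfl⟩ := Finset.mem_image.1 (Finset.mem_coe.1 hz)
    exact Finset.mem_coe.2 (Finset.mem_image.2 ⟨g, Finset.mem_univ _, rfl⟩)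
  · intro z hz z' hz' h
    obtain ⟨g, _, rfl⟩ := Finset.mem_image.1 (Finset.mem_coe.1 hz)
    obtain ⟨g', _, rfl⟩ := Finset.mem_image.1 (Finset.mem_coe.1 hz')
    refine Prod.ext ?_ h
    ext v
    rw [key, key, h]

lemma sparse_of_exp {V : Type} [Fintype V] (H : SimpleGraph V) (ι : V → Fin n)
    (hι : Function.Injective ι) (q : ℝ) (hq : 0 ≤ q)
    (h : ∀ F : H.Subgraph, 1 / 2 ≤ gnpExp n q (fun G => (G.copyCount F.coe : ℝ)))
    (D : Finset (Edge n)) (hD : D ⊆ toE (Sym2.map ι '' H.edgeSet)) :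
    1 ≤ (orb (Equiv.Perm (Fin n)) D : ℝ) * (2 * q) ^ D.card := by
  rcases D.eq_empty_or_nonempty with rfl | hne
  · have : (1 : ℝ) ≤ orb (Equiv.Perm (Fin n)) (∅ : Finset (Edge n)) := by
      exact_mod_cast orb_pos _
    simpa using this
  let F : H.Subgraph :=
    { verts := {a | ∃ b, H.Adj a b ∧ ∃ e ∈ D, e.1 = s(ι a, ι b)}
      Adj := fun a b => H.Adj a b ∧ ∃ e ∈ D, e.1 = s(ι a, ι b)
      adj_sub := fun h => h.1
      edge_vert := fun h => ⟨_, h⟩
      symm := ⟨fun a b h => ⟨h.1.symm, by simpa only [Sym2.eq_swap] using h.2⟩⟩ }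
  let φ : F.verts → Fin n := fun a => ι a.1
  have hφ : Function.Injective φ := hι.comp Subtype.val_injective
  have h1 : (pr F.coe φ).2 = D := by
    ext e
    refine mem_toE.trans ⟨?_, fun he => ?_⟩
    · rintro ⟨x, hx, h⟩
      induction x using Sym2.ind with
      | _ a b =>
        obtain ⟨_, e', he', h'⟩ : F.Adj a.1 b.1 := hx
        rw [← (Subtype.ext (h'.trans h) : e' = e)]
        exact he'
    · obtain ⟨x, hx, h⟩ := mem_toE.1 (hD he)
      induction x using Sym2.ind with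
      | _ a b =>
        have hab : F.Adj a b := ⟨hx, e, he, h.symm⟩
        exact ⟨s(⟨a, F.edge_vert hab⟩, ⟨b, F.edge_vert hab.symm⟩), hab, h⟩
  have h2 := osz_le_orb F.coe (fun a => by
    obtain ⟨b, hb⟩ := a.2
    have hab : F.Adj a.1 b := hb
    exact ⟨⟨b, F.edge_vert hab.symm⟩, hab⟩) φ hφ
  have h3 := h F
  rw [gnpExp_copyCount F.coe φ hφ] at h3
  rw [h1] at h2 h3
  have h4 : (osz F.coe φ : ℝ) ≤ orb (Equiv.Perm (Fin n)) D := by exact_mod_cast h2
  have h5 : (2 : ℝ) ≤ 2 ^ D.card := by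
    have := pow_le_pow_right₀ (one_le_two (α := ℝ)) hne.card_pos
    simpa using this
  have h6 : 0 ≤ q ^ D.card := by positivity
  have h7 := mul_le_mul_of_nonneg_right h4 h6
  rw [mul_pow]
  nlinarith

end Vale.Agent.P064
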