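import Mathlib

open Finset Pointwise

namespace Vale.Agent.P064

variable {Γ : Type} [Group Γ] [Fintype Γ] {Y : Type} [DecidableEq Y] [MulAction Γ Y]

/-- The size of the orbit of a finite set. -/
def orb (Γ : Type) [Group Γ] [Fintype Γ] {Y : Type} [DecidableEq Y] [MulAction Γ Y]
    (D : Finset Y) : ℕ := (univ.image (fun g : Γ => g • D)).card

lemma orb_pos (D : Finset Y) : 0 < orb Γ D :=
  Finset.card_pos.2 ⟨(1 : Γ) • D, Finset.mem_image_of_mem _ (Finset.mem_univ _)⟩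

lemma orb_smul (h : Γ) (D : Finset Y) : orb Γ (h • D) = orb Γ D := by
  unfold orb
  congr 1
  ext E
  simp only [Finset.mem_image, Finset.mem_univ, true_and]
  constructor
  · rintro ⟨g, rfl⟩
    exact ⟨g * h, by rw [mul_smul]⟩
  · rintro ⟨g, rfl⟩
    exact ⟨g * h⁻¹, by rw [mul_smul, inv_smul_smul]⟩

lemma orb_mul_le [Fintype Y] (σ : Finset Y → ℝ) (h0 : ∀ D, 0 ≤ σ D)
    (hinv : ∀ (g : Γ) D, σ (g • D) = σ D) (D : Finset Y) :
    (orb Γ D : ℝ) * σ D ≤ ∑ E, σ E := by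
  have h1 : ∑ E ∈ univ.image (fun g : Γ => g • D), σ E = (orb Γ D : ℝ) * σ D := by
    rw [Finset.sum_congr rfl (g := fun _ => σ D)]
    · simp [orb]
    · intro E hE
      obtain ⟨g, _, rfl⟩ := Finset.mem_image.1 hE
      exact hinv g D
  rw [← h1]
  exact Finset.sum_le_sum_of_subset_of_nonneg (Finset.subset_univ _) fun E _ _ => h0 E

/-- Probability that a random subset of `U` with inclusion weights `r` equals `D`. -/
noncomputable def rho (r : Y → ℝ) (U D : Finset Y) : ℝ :=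
  if D ⊆ U then (∏ y ∈ D, r y) * ∏ y ∈ U \ D, (1 - r y) else 0

lemma rho_nonneg {r : Y → ℝ} (h0 : ∀ y, 0 < r y) (h1 : ∀ y, r y < 1) (U D : Finset Y) :
    0 ≤ rho r U D := by
  unfold rho
  split_ifs
  · exact mul_nonneg (Finset.prod_nonneg fun y _ => (h0 y).le)
      (Finset.prod_nonneg fun y _ => by linarith [h1 y])
  · exact le_rfl

lemma sum_rho [Fintype Y] (r : Y → ℝ) (U : Finset Y) : ∑ D, rho r U D = 1 := by
  have h := Finset.prod_add r (fun y => 1 - r y) U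
  simp only [add_sub_cancel, Finset.prod_const_one] at h
  rw [h]
  unfold rho
  rw [← Finset.sum_filter]
  refine Finset.sum_congr ?_ fun _ _ => rfl
  ext D
  simp

omit [Fintype Γ] in
lemma prod_smul_eq (f : Y → ℝ) (g : Γ) (hf : ∀ y, f (g • y) = f y) (D : Finset Y) :
    ∏ y ∈ g • D, f y = ∏ y ∈ D, f y := by
  rw [Finset.smul_finset_def, Finset.prod_image (fun x _ y _ h => MulAction.injective g h)]
  exact Finset.prod_congr rfl fun y _ => hf y

omit [Fintype Γ] in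
lemma rho_smul {r : Y → ℝ} (g : Γ) (hr : ∀ y, r (g • y) = r y) (U D : Finset Y) :
    rho r (g • U) (g • D) = rho r U D := by
  unfold rho
  rw [← Finset.smul_finset_sdiff, prod_smul_eq r g hr,
    prod_smul_eq (fun y => 1 - r y) g (fun y => by rw [hr])]
  simp only [Finset.smul_finset_subset_smul_finset_iff]

/-- The invariant kernel used in the doubling step. -/
noncomputable def ker (Γ : Type) [Group Γ] [Fintype Γ] {Y : Type} [DecidableEq Y] [MulAction Γ Y]
    (r : Y → ℝ) (U V : Finset Y) : ℝ :=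
  (orb Γ (U ∩ V) : ℝ) * (rho r U (U ∩ V) * rho r V (U ∩ V))

lemma ker_smul {r : Y → ℝ} (g : Γ) (hr : ∀ y, r (g • y) = r y) (U V : Finset Y) :
    ker Γ r (g • U) (g • V) = ker Γ r U V := by
  unfold ker
  rw [← Finset.smul_finset_inter, orb_smul, rho_smul g hr, rho_smul g hr]

lemma ker_nonneg {r : Y → ℝ} (h0 : ∀ y, 0 < r y) (h1 : ∀ y, r y < 1) (U V : Finset Y) :
    0 ≤ ker Γ r U V :=
  mul_nonneg (Nat.cast_nonneg _) (mul_nonneg (rho_nonneg h0 h1 _ _) (rho_nonneg h0 h1 _ _))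

lemma ker_sum_le [Fintype Y] {α : Type} [Fintype α] [MulAction Γ α] {r : Y → ℝ}
    (h0 : ∀ y, 0 < r y) (h1 : ∀ y, r y < 1) (hr : ∀ (g : Γ) y, r (g • y) = r y)
    (U : α → Finset Y) (hU : ∀ (g : Γ) x, U (g • x) = g • U x)
    (ν : α → ℝ) (hν0 : ∀ x, 0 ≤ ν x) (hνi : ∀ (g : Γ) x, ν (g • x) = ν x)
    (hν1 : ∑ x, ν x ≤ 1) :
    ∑ x, ∑ x', ν x * ν x' * ker Γ r (U x) (U x') ≤ 1 := by
  set σ : Finset Y → ℝ := fun D => ∑ x, ν x * rho r (U x) D with hσ
  have hσ0 : ∀ D, 0 ≤ σ D := fun D =>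
    Finset.sum_nonneg fun x _ => mul_nonneg (hν0 x) (rho_nonneg h0 h1 _ _)
  have hσi : ∀ (g : Γ) D, σ (g • D) = σ D := by
    intro g D
    simp only [hσ]
    rw [← Equiv.sum_comp (MulAction.toPerm g) (fun x => ν x * rho r (U x) (g • D))]
    refine Finset.sum_congr rfl fun x _ => ?_
    simp only [MulAction.toPerm_apply]
    rw [hνi, hU, rho_smul g (hr g)]
  have hσ1 : ∑ D, σ D ≤ 1 := by
    simp only [hσ]
    rw [Finset.sum_comm]
    simp only [← Finset.mul_sum, sum_rho, mul_one]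
    exact hν1
  have hk : ∀ x x', ν x * ν x' * ker Γ r (U x) (U x')
      ≤ ∑ D, (orb Γ D : ℝ) * ((ν x * rho r (U x) D) * (ν x' * rho r (U x') D)) := by
    intro x x'
    have := Finset.single_le_sum
      (f := fun D => (orb Γ D : ℝ) * ((ν x * rho r (U x) D) * (ν x' * rho r (U x') D)))
      (fun D _ => mul_nonneg (Nat.cast_nonneg _) (mul_nonneg
        (mul_nonneg (hν0 x) (rho_nonneg h0 h1 _ _)) (mul_nonneg (hν0 x') (rho_nonneg h0 h1 _ _))))
      (Finset.mem_univ (U x ∩ U x'))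
    refine le_trans (le_of_eq ?_) this
    unfold ker
    ring
  calc ∑ x, ∑ x', ν x * ν x' * ker Γ r (U x) (U x')
      ≤ ∑ x, ∑ x', ∑ D, (orb Γ D : ℝ) * ((ν x * rho r (U x) D) * (ν x' * rho r (U x') D)) :=
        Finset.sum_le_sum fun x _ => Finset.sum_le_sum fun x' _ => hk x x'
    _ = ∑ D, ((orb Γ D : ℝ) * σ D) * σ D := by
        have e : ∀ D, ((orb Γ D : ℝ) * σ D) * σ D = ∑ x, ∑ x',
            (orb Γ D : ℝ) * ((ν x * rho r (U x) D) * (ν x' * rho r (U x') D)) := by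
          intro D
          simp only [hσ]
          rw [mul_assoc, Finset.sum_mul_sum, Finset.mul_sum]
          exact Finset.sum_congr rfl fun x _ => by rw [Finset.mul_sum]
        simp only [e]
        rw [Finset.sum_comm (s := univ) (t := univ) (γ := Finset Y)]
        exact Finset.sum_congr rfl fun x _ => Finset.sum_comm
    _ ≤ ∑ D, σ D := Finset.sum_le_sum fun D _ =>
        mul_le_of_le_one_left (hσ0 D) ((orb_mul_le σ hσ0 hσi D).trans hσ1)
    _ ≤ 1 := hσ1

/-- Indicator of membership. -/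
noncomputable def chi (U : Finset Y) (y : Y) : ℝ := if y ∈ U then 1 else 0

lemma log_rho {r : Y → ℝ} (h0 : ∀ y, 0 < r y) (h1 : ∀ y, r y < 1) (H U V : Finset Y)
    (hU : U ⊆ H) :
    0 < rho r U (U ∩ V) ∧ Real.log (rho r U (U ∩ V)) = ∑ y ∈ H,
      (chi U y * chi V y * Real.log (r y) + chi U y * (1 - chi V y) * Real.log (1 - r y)) := by
  have p1 : 0 < ∏ y ∈ U ∩ V, r y := Finset.prod_pos fun y _ => h0 y
  have p2 : 0 < ∏ y ∈ U \ (U ∩ V), (1 - r y) := Finset.prod_pos fun y _ => by linarith [h1 y]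
  unfold rho
  rw [if_pos Finset.inter_subset_left]
  refine ⟨mul_pos p1 p2, ?_⟩
  rw [Real.log_mul p1.ne' p2.ne', Real.log_prod (fun y _ => (h0 y).ne'),
    Real.log_prod (fun y _ => by linarith [h1 y]), Finset.sum_add_distrib]
  congr 1
  · rw [← Finset.sum_subset (Finset.inter_subset_left.trans hU : U ∩ V ⊆ H)]
    · refine Finset.sum_congr rfl fun y hy => ?_
      simp [chi, (Finset.mem_inter.1 hy).1, (Finset.mem_inter.1 hy).2]
    · intro y _ hy
      by_cases a : y ∈ U <;> by_cases b : y ∈ V <;> simp_all [chi]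
  · rw [← Finset.sum_subset (Finset.sdiff_subset.trans hU : U \ (U ∩ V) ⊆ H)]
    · refine Finset.sum_congr rfl fun y hy => ?_
      by_cases a : y ∈ U <;> by_cases b : y ∈ V <;> simp_all [chi]
    · intro y _ hy
      by_cases a : y ∈ U <;> by_cases b : y ∈ V <;> simp_all [chi]

lemma log_ker {r : Y → ℝ} (h0 : ∀ y, 0 < r y) (h1 : ∀ y, r y < 1) (H : Finset Y) (L : ℝ)
    (hsp : ∀ D ⊆ H, D.card * L ≤ Real.log (orb Γ D)) (U V : Finset Y)
    (hU : U ⊆ H) (hV : V ⊆ H) :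
    0 < ker Γ r U V ∧ ∑ y ∈ H, (chi U y * chi V y * (L + 2 * Real.log (r y))
      + (chi U y * (1 - chi V y) + chi V y * (1 - chi U y)) * Real.log (1 - r y))
      ≤ Real.log (ker Γ r U V) := by
  obtain ⟨a1, a2⟩ := log_rho h0 h1 H U V hU
  obtain ⟨b1, b2⟩ := log_rho h0 h1 H V U hV
  rw [Finset.inter_comm] at b1 b2
  have c1 : (0 : ℝ) < orb Γ (U ∩ V) := by exact_mod_cast orb_pos _
  have c2 := hsp (U ∩ V) (Finset.inter_subset_left.trans hU)
  have c3 : ((U ∩ V).card : ℝ) * L = ∑ y ∈ H, chi U y * chi V y * L := by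
    rw [← Finset.sum_subset (Finset.inter_subset_left.trans hU : U ∩ V ⊆ H)]
    · rw [Finset.sum_congr rfl (g := fun _ => L)]
      · simp
      · intro y hy
        simp [chi, (Finset.mem_inter.1 hy).1, (Finset.mem_inter.1 hy).2]
    · intro y _ hy
      by_cases a : y ∈ U <;> by_cases b : y ∈ V <;> simp_all [chi]
  unfold ker
  refine ⟨mul_pos c1 (mul_pos a1 b1), ?_⟩
  rw [Real.log_mul c1.ne' (mul_pos a1 b1).ne', Real.log_mul a1.ne' b1.ne', a2, b2]
  refine le_trans (le_of_eq ?_) (add_le_add c2 le_rfl)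
  rw [c3, ← Finset.sum_add_distrib, ← Finset.sum_add_distrib]
  exact Finset.sum_congr rfl fun y _ => by ring

end Vale.Agent.P064
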