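import Vale.Agent.P064.Dbl

open Finset Pointwise

namespace Vale.Agent.P064

variable {Γ : Type} [Group Γ] [Fintype Γ] {Y : Type} [Fintype Y] [DecidableEq Y] [MulAction Γ Y]

/-- The functional that is minimised. -/
noncomputable def Phi {α : Type} [Fintype α] (U : α → Finset Y) (L : ℝ) (ν μ : α → ℝ) : ℝ :=
  kl μ ν - L * ∑ y, mrg U μ y - 6 * ∑ y, mrg U μ y * Real.sqrt (mrg U μ y)

/-- Admissible laws. -/
def Adm {α : Type} [Fintype α] (U : α → Finset Y) (H : Finset Y) (ν μ : α → ℝ) : Prop :=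
  (∀ x, 0 ≤ μ x) ∧ ∑ x, μ x = 1 ∧ ∀ x, μ x ≠ 0 → 0 < ν x ∧ U x ⊆ H

omit [Fintype Y] in
lemma mrg_nonneg {α : Type} [Fintype α] (U : α → Finset Y) {μ : α → ℝ} (h0 : ∀ x, 0 ≤ μ x)
    (y : Y) : 0 ≤ mrg U μ y :=
  Finset.sum_nonneg fun x _ => mul_nonneg (h0 x) (chi_nonneg _ _)

omit [Fintype Y] in
lemma mrg_le_one {α : Type} [Fintype α] (U : α → Finset Y) {μ : α → ℝ} (h0 : ∀ x, 0 ≤ μ x)
    (h1 : ∑ x, μ x = 1) (y : Y) : mrg U μ y ≤ 1 := by
  rw [← h1]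
  exact Finset.sum_le_sum fun x _ => mul_le_of_le_one_right (h0 x) (chi_le_one _ _)

lemma kl_nonneg {α : Type} [Fintype α] {μ ν : α → ℝ} (h0 : ∀ x, 0 ≤ μ x) (h1 : ∑ x, μ x = 1)
    (ν0 : ∀ x, 0 ≤ ν x) (ν1 : ∑ x, ν x ≤ 1) (hp : ∀ x, μ x ≠ 0 → 0 < ν x) : 0 ≤ kl μ ν := by
  refine le_trans (gibbs μ ν h0 h1 ν0 ν1 hp) (le_of_eq ?_)
  refine Finset.sum_congr rfl fun x _ => ?_
  by_cases h : μ x = 0
  · simp [h]
  · rw [Real.log_div h (hp x h).ne']

lemma phi_base {α : Type} [Fintype α] (U : α → Finset Y) (H : Finset Y) {L L' : ℝ} (hL : 0 ≤ L)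
    (hL' : L' + 6 ≤ L) {ν μ : α → ℝ} (ν0 : ∀ x, 0 ≤ ν x) (ν1 : ∑ x, ν x ≤ 1)
    (h : Adm U H ν μ) : -(Fintype.card Y * L) ≤ Phi U L' ν μ := by
  obtain ⟨h0, h1, hp⟩ := h
  have a := kl_nonneg h0 h1 ν0 ν1 fun x hx => (hp x hx).1
  have b : L' * ∑ y, mrg U μ y + 6 * ∑ y, mrg U μ y * Real.sqrt (mrg U μ y) ≤ ∑ _y : Y, L := by
    rw [Finset.mul_sum, Finset.mul_sum, ← Finset.sum_add_distrib]
    refine Finset.sum_le_sum fun y _ => ?_
    have p0 := mrg_nonneg U h0 y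
    have p1 := mrg_le_one U h0 h1 y
    have p2 : Real.sqrt (mrg U μ y) ≤ 1 := Real.sqrt_le_one.2 p1
    have p3 := mul_le_mul_of_nonneg_left p2 p0
    nlinarith
  simp only [Finset.sum_const, Finset.card_univ, nsmul_eq_mul] at b
  unfold Phi
  linarith

lemma cond_phi {α : Type} [Fintype α] [DecidableEq α] (U : α → Finset Y) (H : Finset Y) (L V : ℝ)
    {ν μ : α → ℝ} (hV : ∀ μ', Adm U H ν μ' → V ≤ Phi U L ν μ') (h : Adm U H ν μ)
    {r : α × Finset Y → ℝ} (r0 : ∀ ω, 0 ≤ r ω) (r1 : ∀ x, ∑ s, r (x, s) = μ x) :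
    V ≤ ne r id - ne r Prod.snd - ∑ x, μ x * Real.log (ν x) - L * ∑ y, mrg U μ y
      - 6 * ∑ y, ∑ ω, r ω * (chi (U ω.1) y
        * Real.sqrt (ce r Prod.snd (fun ω => chi (U ω.1) y) ω.2)) := by
  obtain ⟨h0, h1, hp⟩ := h
  set l := fib r Prod.snd with hl
  have l0 : ∀ s, 0 ≤ l s := fib_nonneg r0 _
  have rs1 : ∑ ω, r ω = 1 := by
    rw [Fintype.sum_prod_type]
    simp only [r1, h1]
  have l1 : ∑ s, l s = 1 := by rw [hl, sum_fib, rs1]
  have lz : ∀ s, l s = 0 → ∀ x, r (x, s) = 0 := by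
    intro s hs x
    by_contra hc
    exact (fib_pos r0 Prod.snd hc).ne' hs
  have hm : ∀ s y, mrg U (fun x => r (x, s) / l s) y
      = ce r Prod.snd (fun ω => chi (U ω.1) y) s := by
    intro s y
    unfold mrg ce
    rw [fib_snd, Finset.sum_div]
    exact Finset.sum_congr rfl fun x _ => by ring
  have a : ∀ s, l s * V ≤ l s * Phi U L ν (fun x => r (x, s) / l s) := by
    intro s
    by_cases hs : l s = 0
    · simp [hs]
    refine mul_le_mul_of_nonneg_left (hV _ ⟨fun x => div_nonneg (r0 _) (l0 s), ?_, ?_⟩) (l0 s)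
    · rw [← Finset.sum_div, ← fib_snd, div_self hs]
    · intro x hx
      refine hp x fun hμ => ?_
      have := r1 x
      rw [hμ, Finset.sum_eq_zero_iff_of_nonneg fun s _ => r0 _] at this
      exact hx (by simp [this s (Finset.mem_univ _)])
  have b := Finset.sum_le_sum fun s (_ : s ∈ univ) => a s
  rw [← Finset.sum_mul, l1, one_mul] at b
  refine b.trans (le_of_eq ?_)
  have e1 : ∑ s, l s * kl (fun x => r (x, s) / l s) ν
      = ne r id - ne r Prod.snd - ∑ x, μ x * Real.log (ν x) := by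
    have : ∑ x, μ x * Real.log (ν x) = ∑ ω, r ω * Real.log (ν ω.1) := by
      rw [Fintype.sum_prod_type]
      simp only [← Finset.sum_mul, r1]
    rw [this]
    unfold ne kl
    rw [← Finset.sum_sub_distrib, ← Finset.sum_sub_distrib, Fintype.sum_prod_type_right]
    refine Finset.sum_congr rfl fun s _ => ?_
    rw [Finset.mul_sum]
    refine Finset.sum_congr rfl fun x _ => ?_
    by_cases hx : r (x, s) = 0
    · simp [hx]
    have hs : l s ≠ 0 := fun hs => hx (lz s hs x)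
    rw [id, fib_id, Real.log_div hx hs, ← hl]
    field_simp
  have e2 : ∀ y, ∑ s, l s * ce r Prod.snd (fun ω => chi (U ω.1) y) s = mrg U μ y := by
    intro y
    simp only [hl, fib_mul_ce r0]
    rw [sum_fib, Fintype.sum_prod_type]
    simp only [← Finset.sum_mul, r1]
    rfl
  have e3 : ∀ y, ∑ s, l s * (ce r Prod.snd (fun ω => chi (U ω.1) y) s
        * Real.sqrt (ce r Prod.snd (fun ω => chi (U ω.1) y) s))
      = ∑ ω, r ω * (chi (U ω.1) y * Real.sqrt (ce r Prod.snd (fun ω => chi (U ω.1) y) ω.2)) := by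
    intro y
    rw [tower r0 Prod.snd (fun ω => chi (U ω.1) y)
      (fun s => Real.sqrt (ce r Prod.snd (fun ω => chi (U ω.1) y) s))]
    exact (sum_push r Prod.snd (fun s => ce r Prod.snd (fun ω => chi (U ω.1) y) s
        * Real.sqrt (ce r Prod.snd (fun ω => chi (U ω.1) y) s))).symm
  simp only [← e1, ← e2, ← e3]
  unfold Phi
  simp only [hm]
  rw [Finset.sum_comm (s := (univ : Finset Y)), Finset.sum_comm (s := (univ : Finset Y)),
    Finset.mul_sum, Finset.mul_sum, ← Finset.sum_sub_distrib, ← Finset.sum_sub_distrib]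
  refine Finset.sum_congr rfl fun s _ => ?_
  simp only [← Finset.mul_sum]
  ring

lemma pot_step {ρ : ℝ} (h0 : 0 ≤ ρ) (h1 : ρ ≤ 1) :
    66 / 5 * (ρ * Real.sqrt ρ)
      ≤ 84 / 5 * ρ ^ 2 + 6 * ((2 * ρ - ρ ^ 2) * Real.sqrt (2 * ρ - ρ ^ 2)) := by
  have e := Real.mul_self_sqrt h0
  have a0 := Real.sqrt_nonneg ρ
  have a1 : Real.sqrt ρ ≤ 1 := Real.sqrt_le_one.2 h1
  set a := Real.sqrt ρ with ha
  have p : 0 ≤ 2 * ρ - ρ ^ 2 := by nlinarith
  have c3 : 0 ≤ ρ * a := mul_nonneg h0 a0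
  by_cases h : a ≤ 1 / 2
  · have r4 : ρ ≤ 1 / 4 := by nlinarith
    have b : 13 / 10 * a ≤ Real.sqrt (2 * ρ - ρ ^ 2) := Real.le_sqrt_of_sq_le (by nlinarith)
    have c := mul_le_mul (by nlinarith : 7 / 4 * ρ ≤ 2 * ρ - ρ ^ 2) b (by positivity) p
    nlinarith [sq_nonneg ρ]
  · have b : a ≤ Real.sqrt (2 * ρ - ρ ^ 2) := Real.le_sqrt_of_sq_le (by nlinarith)
    have c := mul_le_mul (by nlinarith : ρ ≤ 2 * ρ - ρ ^ 2) b a0 p
    have d : ρ * a * (1 / 2) ≤ ρ * a * a := mul_le_mul_of_nonneg_left (le_of_not_ge h) c3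
    have f : ρ * a * a = ρ ^ 2 := by rw [mul_assoc, e, sq]
    nlinarith

theorem main_ind (H : Finset Y) (L M : ℝ) (hL : 0 ≤ L) (hM0 : 0 ≤ M)
    (hsp : ∀ D ⊆ H, D.card * L ≤ Real.log (orb Γ D))
    (hM : ∀ D : Finset Y, ((univ.filter (fun g : Γ => g • D ⊆ H)).card : ℝ)
      ≤ Fintype.card Γ * Real.exp (-(D.card * (L - M)))) (t : ℕ) :
    ∀ (α : Type) [Fintype α] [DecidableEq α] [MulAction Γ α] (U : α → Finset Y) (ν μ : α → ℝ),
      (∀ (g : Γ) x, U (g • x) = g • U x) → (∀ x, 0 ≤ ν x) → (∀ (g : Γ) x, ν (g • x) = ν x) →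
      ∑ x, ν x ≤ 1 → Adm U H ν μ →
      -3 - (1 / 2) ^ t * (Fintype.card Y * L) ≤ Phi U (L - 4 / 5 * M - 18) ν μ := by
  induction t with
  | zero =>
    intro α _ _ _ U ν μ _ ν0 _ ν1 h
    have := phi_base U H hL (by linarith : L - 4 / 5 * M - 18 + 6 ≤ L) ν0 ν1 h
    rw [pow_zero]
    linarith
  | succ t ih =>
    intro α _ _ _ U ν μ₀ hU ν0 νi ν1 h₀
    set L' := L - 4 / 5 * M - 18 with hL'
    set S : Set ℝ := Phi U L' ν '' {μ | Adm U H ν μ} with hS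
    have bdd : BddBelow S := ⟨-(Fintype.card Y * L), by
      rintro _ ⟨μ, hμ, rfl⟩
      exact phi_base U H hL (by linarith) ν0 ν1 hμ⟩
    have hV : ∀ μ', Adm U H ν μ' → sInf S ≤ Phi U L' ν μ' := fun μ' h =>
      csInf_le bdd ⟨μ', h, rfl⟩
    obtain ⟨_, ⟨μ, h, rfl⟩, hμ⟩ := exists_lt_of_csInf_lt (s := S) ⟨_, μ₀, h₀, rfl⟩
      (lt_add_one (sInf S))
    refine le_trans ?_ (hV μ₀ h₀)
    have c1 := cond_phi U H L' (sInf S) hV h (rs_nonneg (Γ := Γ) (U := U) h.1)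
      (sum_rs_snd h.1 h.2.1)
    obtain ⟨h0, h1, hp⟩ := h
    have c2 := code (rs_nonneg (Γ := Γ) (U := U) h0) (sum_rs h0 h1) U
      (fun ω hω => (rs_supp hU hω).2.2)
    have c3 : ∑ y, ∑ ω, rs Γ U μ ω * chi ω.2 y = ∑ y, mrg U μ y ^ 2 := by
      rw [← rs_card (Γ := Γ) h0 h1, Finset.sum_comm]
      simp only [card_eq_chi, Finset.mul_sum]
    have c4 := kl_pair (Γ := Γ) (U := U) h0 h1
    have c5 := ne_rs_fst (Γ := Γ) (U := U) h0 h1
    have c6 := ne_rs_id hU h0 h1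
    have c7 := sg_orb H L hsp hU h0 h1 fun x hx => (hp x hx).2
    have c8 := sg_self H (L - M) hM hU h0 h1 fun x hx => (hp x hx).2
    have c9 := log_le_avg h0 h1 ν0 νi ν1 fun x hx => (hp x hx).1
    have hm : ∀ y, mrg (fun z : α × α => U z.1 ∪ U z.2) (fun z => μ z.1 * μ z.2) y
        = 2 * mrg U μ y - mrg U μ y ^ 2 := by
      intro y
      have := bilin μ h1 (fun x => chi (U x) y) (-1) 1
      unfold mrg
      simp only [chi_union]
      rw [show 2 * ∑ x, μ x * chi (U x) y - (∑ x, μ x * chi (U x) y) ^ 2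
        = -1 * (∑ x, μ x * chi (U x) y) ^ 2 + 2 * 1 * ∑ x, μ x * chi (U x) y by ring, ← this]
      exact Finset.sum_congr rfl fun z _ => by ring
    have key := ih (α × α) (fun z => U z.1 ∪ U z.2) (nu2 Γ U μ) (fun z => μ z.1 * μ z.2)
      (fun g z => by simp only [Prod.smul_fst, Prod.smul_snd, hU, Finset.smul_finset_union])
      (nu2_nonneg h0) (nu2_smul hU) (sum_nu2 h0 h1)
      ⟨fun z => mul_nonneg (h0 _) (h0 _),
        by rw [Fintype.sum_prod_type]; simp only [← Finset.mul_sum, h1, mul_one],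
        fun z hz => by
          obtain ⟨p1, p2, p3⟩ := pair_pos (Γ := Γ) (U := U) h0 hz
          exact ⟨div_pos (mul_pos p1 p2) p3, Finset.union_subset
            (hp _ (left_ne_zero_of_mul hz)).2 (hp _ (right_ne_zero_of_mul hz)).2⟩⟩
    have c10 : kl μ ν = ∑ x, μ x * Real.log (μ x) - ∑ x, μ x * Real.log (ν x) := by
      unfold kl
      simp only [mul_sub, Finset.sum_sub_distrib]
    have c11 : 66 / 5 * ∑ y, mrg U μ y * Real.sqrt (mrg U μ y)
        ≤ 84 / 5 * ∑ y, mrg U μ y ^ 2 + 6 * ∑ y, (2 * mrg U μ y - mrg U μ y ^ 2)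
          * Real.sqrt (2 * mrg U μ y - mrg U μ y ^ 2) := by
      rw [Finset.mul_sum, Finset.mul_sum, Finset.mul_sum, ← Finset.sum_add_distrib]
      exact Finset.sum_le_sum fun y _ => pot_step (mrg_nonneg U h0 y) (mrg_le_one U h0 h1 y)
    unfold Phi at key hμ
    simp only [hm] at key
    rw [Finset.sum_sub_distrib, ← Finset.mul_sum] at key
    rw [c3] at c2
    rw [pow_succ]
    have e1 : L' * (2 * ∑ y, mrg U μ y - ∑ y, mrg U μ y ^ 2)
        = 2 * (L' * ∑ y, mrg U μ y) - L * ∑ y, mrg U μ y ^ 2 + 4 / 5 * (M * ∑ y, mrg U μ y ^ 2)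
          + 18 * ∑ y, mrg U μ y ^ 2 := by rw [hL']; ring
    have e2 : (L - M) * ∑ y, mrg U μ y ^ 2
        = L * ∑ y, mrg U μ y ^ 2 - M * ∑ y, mrg U μ y ^ 2 := by ring
    rw [e1] at key
    rw [e2] at c8
    linarith

end Vale.Agent.P064
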